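import Mathlib.Data.Set.Basic
import Mathlib.Data.List.Basic
import Mathlib.Data.ZMod.Basic

namespace Vale.Agent.P329.Look

/-- There is a mark at the position `x` of `w`: the window of length `m` at `x` belongs to `U`. -/
def Mark {α : Type} (U : Set (List α)) (m : ℕ) (w : List α) (x : ℕ) : Prop :=
  x + m ≤ w.length ∧ (w.drop x).take m ∈ U

/-- There is a boundary at the beginning of `s`: a mark such that none of the next `T` positions
is a mark (and `s` is long enough to show this). -/
def Bdy {α : Type} (U : Set (List α)) (m T : ℕ) (s : List α) : Prop :=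
  m + T ≤ s.length ∧ Mark U m s 0 ∧ ∀ p, 0 < p → p ≤ T → ¬ Mark U m s p

/-- add one to the length of the first zone -/
def bump {κ : Type} : List (κ × ℕ) → List (κ × ℕ)
  | [] => []
  | z :: l => (z.1, z.2 + 1) :: l

open Classical in
/-- The zones of a word: for every boundary, from left to right, its colour (the value of `c` on the
window of length `m + T` at this position) and its distance to the previous boundary (for the first
one: to the beginning of the word). -/
noncomputable def zones {α κ : Type} (U : Set (List α)) (m T : ℕ) (c : List α → κ) :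
    List α → List (κ × ℕ)
  | [] => []
  | a :: w => (if Bdy U m T (a :: w) then [(c ((a :: w).take (m + T)), 0)] else []) ++
      bump (zones U m T c w)

/-- total length of the zones -/
def tot {κ : Type} (L : List (κ × ℕ)) : ℕ := (L.map Prod.snd).sum

/-- the type word: colours and lengths modulo `P` -/
def typ {κ : Type} (P : ℕ) (L : List (κ × ℕ)) : List (κ × ZMod P) :=
  L.map fun z => (z.1, (z.2 : ZMod P))

/-- The boundary before the zones `L` is big: the types of the next `W` zones satisfy `Φ`. -/
def Big {κ : Type} (P W : ℕ) (Φ : List (κ × ZMod P) → Prop) (L : List (κ × ℕ)) : Prop :=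
  W ≤ L.length ∧ Φ ((typ P L).take W)

/-- After the boundaries which open the zones `B` (preceded in `g` by the zones `A`) there is no
mark for the next `n` positions. -/
def Open {α κ : Type} (U : Set (List α)) (m n : ℕ) (g : List α) (A B : List (κ × ℕ)) : Prop :=
  ∀ B1 B2 : List (κ × ℕ), B = B1 ++ B2 → B2 ≠ [] →
    ∀ x, tot (A ++ B1) < x → x < tot (A ++ B1) + n → ¬ Mark U m g x

/-- Good words: they have a big boundary, later a row `B` of `K` consecutive zones without a big
boundary strictly inside, each of them opened by a gap of length `n`, and later again a big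
boundary. -/
def Good {α κ : Type} (U : Set (List α)) (m T : ℕ) (c : List α → κ) (P W : ℕ)
    (Φ : List (κ × ZMod P) → Prop) (K n : ℕ) (g : List α) : Prop :=
  ∃ A1 A2 B D1 D2 : List (κ × ℕ), zones U m T c g = (A1 ++ A2) ++ (B ++ (D1 ++ D2)) ∧
    A1 ≠ [] ∧ Big P W Φ A2 ∧ B.length = K ∧ Big P W Φ D2 ∧
    (∀ B1 B2 : List (κ × ℕ), B = B1 ++ B2 → B1 ≠ [] → B2 ≠ [] →
      ¬ Big P W Φ (B2 ++ (D1 ++ D2))) ∧
    Open U m n g (A1 ++ A2) B

/-- `x` has a period at most `k`. -/
def Per {Θ : Type} (k : ℕ) (x : List Θ) : Prop :=
  ∃ d, 0 < d ∧ d ≤ k ∧ ∀ i, i + d < x.length → x[i]? = x[i + d]?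

/-- `x` is a product of at most `N` words which have a period at most `k`. -/
def Simple {Θ : Type} (k N : ℕ) (x : List Θ) : Prop :=
  ∃ l : List (List Θ), l.length ≤ N ∧ l.flatten = x ∧ ∀ y ∈ l, Per k y

/-- Rich words: they contain a row `B` of consecutive zones, each of them opened by a gap of length
`n`, whose type word is not a product of `N` words with a period at most `k`. -/
def Rich {α κ : Type} (U : Set (List α)) (m T : ℕ) (c : List α → κ) (P k N n : ℕ)
    (g : List α) : Prop :=
  ∃ A B D : List (κ × ℕ), zones U m T c g = A ++ (B ++ D) ∧ A ≠ [] ∧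
    ¬ Simple k N (typ P B) ∧ Open U m n g A B

end Vale.Agent.P329.Look
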