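import Vale.Agent.P329.H616.Look.Win
import Vale.Agent.P329.Mark.Long

set_option linter.all false

/-!
The data from the needs; good words for windows.
-/

namespace Vale.Agent.P329.Look

open Vale.Agent.P329 Vale.Agent.P329.Slow Vale.Agent.P329.Mark Vale.Agent.P329.Clock
open Vale.Agent.P329.TwoMarks (md big needs)

section dat

theorem typ_fg {κ V : Type} [AddCommGroup V] (P : ℕ) (L : List (Zn κ V)) :
    typ P (L.map fg) = L.map fun z => (z.q, (z.j : ZMod P)) := by
  unfold typ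
  rw [List.map_map]
  rfl

theorem exists_dat (V : Type) [Finite V] [AddCommGroup V] : ∃ K : ℕ, 0 < K ∧
    ∀ (κ : Type) [Finite κ] (P W : ℕ), 0 < P → 0 < W → ∃ N : ℕ, 0 < N ∧
      ∀ Φ : List (κ × ZMod P) → Prop, ∃ D : Dat κ V, D.K = K ∧ D.Lg = N ∧
        ∀ L : List (Zn κ V), D.st L ↔ Big P W Φ (L.map fg) := by
  classical
  obtain ⟨M, hM, gy, gv, H⟩ := needs V
  have : NeZero M := ⟨hM.ne'⟩
  have hfV : Fintype V := Fintype.ofFinite V
  have hfH : Finite (V →+ V) := Finite.of_injective (fun f : V →+ V => (f : V → V))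
    DFunLike.coe_injective
  have hfH' : Fintype (V →+ V) := Fintype.ofFinite _
  obtain ⟨K, hK⟩ : ∃ K, K = Fintype.card (ZMod M × (V →+ V) × V) := ⟨_, rfl⟩
  have hK0 : 0 < K := by rw [hK]; exact Fintype.card_pos_iff.2 ⟨(0, 0, 0)⟩
  have : NeZero K := ⟨hK0.ne'⟩
  obtain ⟨e⟩ : Nonempty (ZMod K ≃ ZMod M × (V →+ V) × V) :=
    ⟨Fintype.equivOfCardEq (by rw [ZMod.card, hK])⟩
  choose c I J h1 h2 h3 using fun r : ZMod K => H (e r).1 (e r).2.1 (e r).2.2
  refine ⟨K, hK0, fun κ _ P W hP hW => ?_⟩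
  have : NeZero P := ⟨hP.ne'⟩
  have hfκ : Fintype κ := Fintype.ofFinite κ
  obtain ⟨mu, hmu⟩ : ∃ mu, mu = Fintype.card (ZMod K × (κ × ZMod P) ×
    (Fin W → Option (κ × ZMod P))) := ⟨_, rfl⟩
  let f := Fintype.equivFin (ZMod K × (κ × ZMod P) × (Fin W → Option (κ × ZMod P)))
  refine ⟨P * (big M mu + 1), Nat.mul_pos hP (Nat.succ_pos _), fun Φ => ?_⟩
  refine ⟨{
    P := P
    W := W
    K := K
    M := M
    mu := mu
    pP := hP
    pW := hW
    pK := hK0
    pM := hM
    Φ := fun f => ∃ x : List (κ × ZMod P), x.length = W ∧ (∀ i : Fin W, f i = x[(i : ℕ)]?) ∧ Φ x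
    hΦ := ?_
    gy := gy
    gv := gv
    nd := e
    nd_surj := e.surjective
    c := c
    I := I
    J := J
    ne := h1
    sound := h2
    complete := h3
    ix := fun r θ g => (f (r, θ, g) : ℕ) + 1
    ix_inj := ?_
    ix_pos := fun r θ g => Nat.succ_pos _
    ix_le := fun r θ g => by
      have h4 := (f (r, θ, g)).2
      have h5 : (f (r, θ, g) : ℕ) < mu := h4.trans_le hmu.ge
      exact h5 }, rfl, rfl, ?_⟩
  · rintro g ⟨x, hx, hg, -⟩ i h
    rw [hg i, List.getElem?_eq_none_iff] at h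
    have := i.2
    omega
  · intro r θ g r' θ' g' h
    have h4 : f (r, θ, g) = f (r', θ', g') := Fin.ext (Nat.succ_injective h)
    have h5 := f.injective h4
    simp only [Prod.mk.injEq] at h5
    exact h5
  · intro L
    unfold Big
    rw [typ_fg, List.length_map]
    show (∃ x : List (κ × ZMod P), x.length = W ∧
      (∀ i : Fin W, (L.map fun z => (z.q, (z.j : ZMod P)))[(i : ℕ)]? = x[(i : ℕ)]?) ∧ Φ x) ↔ _
    obtain ⟨y, hy⟩ : ∃ y, y = L.map fun z => (z.q, (z.j : ZMod P)) := ⟨_, rfl⟩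
    have hyl : y.length = L.length := by rw [hy, List.length_map]
    rw [← hy, ← hyl]
    constructor
    · rintro ⟨x, hx, hi, hΦ⟩
      have hle : W ≤ y.length := by
        by_contra hlt
        push Not at hlt
        have h4 := hi ⟨y.length, hlt⟩
        dsimp only at h4
        rw [List.getElem?_eq_none le_rfl, eq_comm, List.getElem?_eq_none_iff] at h4
        omega
      refine ⟨hle, ?_⟩
      have h5 : y.take W = x := by
        apply List.ext_getElem?
        intro i
        by_cases h6 : i < W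
        · rw [List.getElem?_take, if_pos h6]
          exact hi ⟨i, h6⟩
        · rw [List.getElem?_take, if_neg h6, List.getElem?_eq_none (by omega)]
      rw [h5]; exact hΦ
    · rintro ⟨hle, hΦ⟩
      refine ⟨y.take W, by rw [List.length_take]; omega, fun i => ?_, hΦ⟩
      rw [List.getElem?_take, if_pos i.2]

end dat

section good

variable {α κ V : Type} [AddCommGroup V] (M : α → V →+ V)

theorem good_text {U : Set (List α)} {m T : ℕ} {c : List α → κ} (hm : 0 < m) {P W : ℕ}
    {Φ : List (κ × ZMod P) → Prop} {K N : ℕ} {D : Dat κ V} (hDK : D.K = K) (hDN : D.Lg = N)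
    (hst : ∀ L : List (Zn κ V), D.st L ↔ Big P W Φ (L.map fg))
    (hT : m = 1 ∨ N + m ≤ T) {g : List α}
    (hg : Good U m T c P W Φ K (N + T + m) g) : GoodT M (win U m T c hm) D g := by
  classical
  obtain ⟨A1, A2, B, D1, D2, hZ, hA1, hA2, hB, hD2, hnot, hopen⟩ := hg
  rw [← fg_Z M U m T c hm, List.map_eq_append_iff] at hZ
  obtain ⟨A', R', hZ, hA', hR'⟩ := hZ
  rw [List.map_eq_append_iff] at hA' hR'
  obtain ⟨A1', A2', rfl, rfl, rfl⟩ := hA'
  obtain ⟨B', R', rfl, rfl, hR'⟩ := hR'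
  rw [List.map_eq_append_iff] at hR'
  obtain ⟨D1', D2', rfl, rfl, rfl⟩ := hR'
  have hA1' : A1' ≠ [] := by rintro rfl; exact hA1 rfl
  refine ⟨A1' ++ A2', B', D1' ++ D2', hZ, D.lr_ne ((hst _).2 hA2) _ hA1', ?_, ?_, ?_, ?_⟩
  · rw [hDK, ← hB, List.length_map]
  · intro C1 C2 hC h1 h2 h3
    rw [hst] at h3
    refine hnot (C1.map fg) (C2.map fg) (by rw [hC, List.map_append]) ?_ ?_ ?_
    · intro h4; exact h1 (List.map_eq_nil_iff.1 h4)
    · intro h4; exact h2 (List.map_eq_nil_iff.1 h4)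
    · rwa [List.map_append, List.map_append] at h3
  · exact D.hsT_app _ (D.hsT_of_st ((hst _).2 hD2))
  · intro C1 X C2 hC
    obtain ⟨p, hp⟩ : ∃ p, p = len ((A1' ++ A2') ++ C1) := ⟨_, rfl⟩
    have hZ1 : Z M (win U m T c hm) g = ((A1' ++ A2') ++ C1) ++ X :: (C2 ++ (D1' ++ D2')) := by
      rw [hZ, hC]; simp
    have hZ2 : Z M (win U m T c hm) g =
        (((A1' ++ A2') ++ C1) ++ [X]) ++ (C2 ++ (D1' ++ D2')) := by
      rw [hZ, hC]; simp
    have hne : (A1' ++ A2') ++ C1 ≠ [] := by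
      intro h
      rw [List.append_eq_nil_iff, List.append_eq_nil_iff] at h
      exact hA1' h.1.1
    have b1 : Bdy U m T (g.drop p) := by
      rw [hp]; exact Z_pos M (win U m T c hm) g _ _ hZ1 hne
    have hX := Z_jpos M (win U m T c hm) g _ _ _ hZ1 hne
    have b2 : Bdy U m T (g.drop (p + X.j)) := by
      have h := Z_pos M (win U m T c hm) g _ _ hZ2 (by simp)
      rw [len_append, ← hp] at h
      exact h
    have hpl : p + X.j + (m + T) ≤ g.length := by
      have h := b2.1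
      rw [List.length_drop] at h
      omega
    have m2 : Mark U m g (p + X.j) := by
      have h := (mark_drop (by omega)).1 b2.2.1
      rwa [Nat.add_zero] at h
    have hex : ∃ y, 0 < y ∧ Mark U m g (p + y) := ⟨X.j, hX, m2⟩
    obtain ⟨γ, hγ⟩ : ∃ γ, γ = Nat.find hex := ⟨_, rfl⟩
    obtain ⟨g1, g2⟩ := Nat.find_spec hex
    rw [← hγ] at g1 g2
    have g3 : γ ≤ X.j := by rw [hγ]; exact Nat.find_min' hex ⟨hX, m2⟩
    have g4 : ∀ y, 0 < y → y < γ → ¬ Mark U m g (p + y) := fun y h5 h6 h7 =>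
      Nat.find_min hex (by rw [← hγ]; exact h6) ⟨h5, h7⟩
    have g5 : N + T + m ≤ γ := by
      by_contra hlt
      push Not at hlt
      refine hopen (C1.map fg) ((X :: C2).map fg) (by rw [hC, List.map_append]) (by simp) (p + γ)
        ?_ ?_ g2
      · rw [← List.map_append, ← List.map_append, len_fg, ← hp]; omega
      · rw [← List.map_append, ← List.map_append, len_fg, ← hp]; omega
    refine ⟨γ - N, ?_, by omega, fun i hi1 hi2 => ?_⟩
    · show m + T ≤ γ - N
      omega
    · rw [← hp]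
      rw [hDN] at hi2
      constructor
      · refine ⟨p, ?_, fun x hx hM => ?_⟩
        · rw [List.length_take]; omega
        · have h5 := hM.1
          rw [List.length_take] at h5
          have h6 : x + m ≤ p + i := by omega
          rw [mark_take h6] at hM
          refine g4 (x - p) (by omega) (by omega) ?_
          rwa [show p + (x - p) = x by omega]
      · rcases hT with hT | hT
        · exact Or.inl (by omega)
        · refine Or.inr ⟨γ - i, by omega, ?_⟩
          rw [mark_drop (by omega)]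
          rwa [show p + i + (γ - i) = p + γ by omega]

/-- evaluation of linear actions -/
theorem cls_look (V : Type) [Finite V] [AddCommGroup V] : ∃ K : ℕ, 0 < K ∧
    ∀ (κ : Type) [Finite κ] (P W : ℕ), 0 < P → 0 < W → ∃ N : ℕ, 0 < N ∧
      ∀ (α : Type) [Finite α] (Q : Set (List α) → Prop), Cls Q →
      ∀ (M : α → V →+ V) (U : Set (List α)) (m T : ℕ) (c : List α → κ), 0 < m →
        (m = 1 ∨ N + m ≤ T) → ∀ (Φ : List (κ × ZMod P) → Prop) (C : ℕ) (x : V) (F : Set V),
        Q {w : List α | Dom {g | Good U m T c P W Φ K (N + T + m) g} C w ∧ act M w x ∈ F} := by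
  obtain ⟨K, hK, H⟩ := exists_dat V
  refine ⟨K, hK, fun κ _ P W hP hW => ?_⟩
  obtain ⟨N, hN, H⟩ := H κ P W hP hW
  refine ⟨N, hN, fun α _ Q hQ M U m T c hm hT Φ C x F => ?_⟩
  obtain ⟨D, hDK, hDN, hst⟩ := H Φ
  have S := sys M (win U m T c hm) D (n := C + 1) (Nat.succ_pos _)
  have S' : CS (C + 1) (El M (win U m T c hm) D) (PL M (win U m T c hm) D)
      (fun _ : V => PR M (win U m T c hm) D (C + 1))
      (lm M (win U m T c hm) D) (fun _ : V => Ps M (win U m T c hm) D)
      {g | Good U m T c P W Φ K (N + T + m) g ∧ g.length ≤ C} :=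
    { S with
      cutIn := fun g hg => S.cutIn g ⟨good_text M hm hDK hDN hst hT hg.1, by
        have := hg.2
        omega⟩ }
  have h1 := S'.cls_act hQ M (El_act M _ D) C x F
  convert h1 using 1
  ext w
  have h2 : Dom {g | Good U m T c P W Φ K (N + T + m) g} C w ↔
      Dom {g | Good U m T c P W Φ K (N + T + m) g ∧ g.length ≤ C} C w := by
    constructor
    · intro h u hu hl
      obtain ⟨g, hg, hgu⟩ := h u hu hl
      exact ⟨g, ⟨hg, hl ▸ hgu.length_le⟩, hgu⟩
    · intro h u hu hl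
      obtain ⟨g, hg, hgu⟩ := h u hu hl
      exact ⟨g, hg.1, hgu⟩
  show _ ∧ _ ↔ _ ∧ _
  rw [h2]

/-- regular languages on words with big marks decided by look-ahead -/
theorem regular_look (n : ℕ) : ∃ K : ℕ, 0 < K ∧
    ∀ (κ : Type) [Finite κ] (P W : ℕ), 0 < P → 0 < W → ∃ N : ℕ, 0 < N ∧
      ∀ (α : Type) [Finite α] (Q : Set (List α) → Prop), Cls Q → ∀ (A : DFA α (Fin n))
        (U : Set (List α)) (m T : ℕ) (c : List α → κ), 0 < m → (m = 1 ∨ N + m ≤ T) →
        ∀ (Φ : List (κ × ZMod P) → Prop) (C : ℕ),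
          Q {w : List α | w ∈ A.accepts ∧
            Dom {g | Good U m T c P W Φ K (N + T + m) g} C w} := by
  obtain ⟨K, hK, H⟩ := cls_look (Fin (Fintype.card (Fin n)) → ZMod 2)
  refine ⟨K, hK, fun κ _ P W hP hW => ?_⟩
  obtain ⟨N, hN, H⟩ := H κ P W hP hW
  refine ⟨N, hN, fun α _ Q hQ A U m T c hm hT Φ C => ?_⟩
  exact dfa_transfer (Q := {w | Dom {g | Good U m T c P W Φ K (N + T + m) g} C w}) (P := Q) A
    fun M x F => H α Q hQ M U m T c hm hT Φ C x F

end good

end Vale.Agent.P329.Look
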