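import Vale.Agent.P329.H616.Look.Inst

set_option linter.all false

/-!
One kind of marks: big marks are strict local minima among the places which are not periodic.
-/

namespace Vale.Agent.P329.Look

section per

variable {Θ : Type}

/-- the factor of length `2 * k + 1` at the position `p` -/
def wd (k : ℕ) (x : List Θ) (p : ℕ) : List Θ := (x.drop p).take (2 * k + 1)

/-- this factor has no period at most `k` -/
def NP (k : ℕ) (x : List Θ) (p : ℕ) : Prop := p + (2 * k + 1) ≤ x.length ∧ ¬ Per k (wd k x p)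

theorem wd_length {k : ℕ} {x : List Θ} {p : ℕ} (h : p + (2 * k + 1) ≤ x.length) :
    (wd k x p).length = 2 * k + 1 := by
  unfold wd
  rw [List.length_take, List.length_drop]
  omega

theorem wd_get {k : ℕ} {x : List Θ} {p i : ℕ} (hi : i < 2 * k + 1) :
    (wd k x p)[i]? = x[p + i]? := by
  unfold wd
  rw [List.getElem?_take, if_pos hi, List.getElem?_drop]

theorem wd_drop (k : ℕ) (x : List Θ) (p q : ℕ) : wd k (x.drop p) q = wd k x (p + q) := by
  unfold wd
  rw [List.drop_drop]

theorem wd_append {k : ℕ} {x : List Θ} (y : List Θ) {q : ℕ} (h : q + (2 * k + 1) ≤ x.length) :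
    wd k (x ++ y) q = wd k x q := by
  unfold wd
  rw [List.drop_append_of_le_length (by omega), List.take_append_of_le_length]
  rw [List.length_drop]; omega

theorem NP_drop {k : ℕ} {x : List Θ} {p : ℕ} (hp : p ≤ x.length) (q : ℕ) :
    NP k (x.drop p) q ↔ NP k x (p + q) := by
  unfold NP
  rw [wd_drop, List.length_drop]
  exact and_congr ⟨fun _ => by omega, fun _ => by omega⟩ Iff.rfl

theorem NP_append {k : ℕ} {x : List Θ} (y : List Θ) {q : ℕ} (h : q + (2 * k + 1) ≤ x.length) :
    NP k (x ++ y) q ↔ NP k x q := by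
  unfold NP
  rw [wd_append y h, List.length_append]
  exact and_congr ⟨fun _ => h, fun _ => by omega⟩ Iff.rfl

theorem NP_take {k : ℕ} {x : List Θ} {n q : ℕ} (h : NP k (x.take n) q) : NP k x q := by
  have h1 : x = x.take n ++ x.drop n := (List.take_append_drop n x).symm
  rw [h1, NP_append _ h.1]
  exact h

theorem per_short {k : ℕ} (hk : 0 < k) {x : List Θ} (hx : x.length ≤ k) : Per k x :=
  ⟨k, hk, le_rfl, fun i hi => by omega⟩

theorem Simple.append {k a b : ℕ} {x y : List Θ} (hx : Simple k a x) (hy : Simple k b y) :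
    Simple k (a + b) (x ++ y) := by
  obtain ⟨l, h1, rfl, h2⟩ := hx
  obtain ⟨l', h3, rfl, h4⟩ := hy
  refine ⟨l ++ l', by rw [List.length_append]; omega, List.flatten_append, fun z hz => ?_⟩
  rcases List.mem_append.1 hz with h | h
  · exact h2 z h
  · exact h4 z h

theorem simple_one {k : ℕ} {x : List Θ} (hx : Per k x) : Simple k 1 x :=
  ⟨[x], by simp, by simp, by simpa using hx⟩

theorem Simple.mono {k a b : ℕ} {x : List Θ} (h : Simple k a x) (hab : a ≤ b) : Simple k b x := by
  obtain ⟨l, h1, h2, h3⟩ := h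
  exact ⟨l, h1.trans hab, h2, h3⟩

/-- local periods extend -/
theorem per_of_local {k : ℕ} {x : List Θ} (h : ∀ s, ¬ NP k x s) : ∀ n, 2 * k + 1 ≤ n →
    n ≤ x.length → ∃ d, 0 < d ∧ d ≤ k ∧ ∀ i, i + d < n → x[i]? = x[i + d]? := by
  have hw : ∀ s, s + (2 * k + 1) ≤ x.length → ∃ d, 0 < d ∧ d ≤ k ∧
      ∀ i, i + d < 2 * k + 1 → x[s + i]? = x[s + i + d]? := by
    intro s hs
    have h1 : Per k (wd k x s) := by
      by_contra h2
      exact h s ⟨hs, h2⟩
    obtain ⟨d, h2, h3, h4⟩ := h1
    refine ⟨d, h2, h3, fun i hi => ?_⟩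
    have h5 := h4 i (by rw [wd_length hs]; exact hi)
    rw [wd_get (by omega), wd_get hi] at h5
    rw [h5, add_assoc]
  intro n
  induction n with
  | zero => intro h1; omega
  | succ n ih =>
    intro h1 h2
    by_cases h3 : 2 * k + 1 ≤ n
    · obtain ⟨d, d1, d2, d3⟩ := ih h3 (by omega)
      obtain ⟨e, e1, e2, e3⟩ := hw (n - 2 * k) (by omega)
      refine ⟨d, d1, d2, fun i hi => ?_⟩
      by_cases h4 : i + d < n
      · exact d3 i h4
      · have h5 : i + d = n := by omega
        have f1 := e3 (2 * k - e) (by omega)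
        rw [show n - 2 * k + (2 * k - e) = n - e by omega, show n - e + e = n by omega] at f1
        have f2 := d3 (n - e - d) (by omega)
        rw [show n - e - d + d = n - e by omega] at f2
        have f3 := e3 (2 * k - e - d) (by omega)
        rw [show n - 2 * k + (2 * k - e - d) = n - e - d by omega,
          show n - e - d + e = i by omega] at f3
        rw [h5, ← f1, ← f2, f3]
    · have h4 : n = 2 * k := by omega
      obtain ⟨d, d1, d2, d3⟩ := hw 0 (by omega)
      refine ⟨d, d1, d2, fun i hi => ?_⟩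
      have := d3 i (by omega)
      rwa [Nat.zero_add] at this

theorem simple_two {k : ℕ} (hk : 0 < k) {x : List Θ} (h : ∀ s, ¬ NP k x s) : Simple k 2 x := by
  by_cases h1 : 2 * k + 1 ≤ x.length
  · obtain ⟨d, d1, d2, d3⟩ := per_of_local h x.length h1 le_rfl
    exact (simple_one ⟨d, d1, d2, d3⟩).mono (by omega)
  · have h2 : Simple k (1 + 1) (x.take k ++ x.drop k) :=
      (simple_one (per_short hk (by rw [List.length_take]; omega))).append
        (simple_one (per_short hk (by rw [List.length_drop]; omega)))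
    rwa [List.take_append_drop] at h2

/-- many places without a small period -/
theorem many {k : ℕ} (hk : 0 < k) : ∀ (J : ℕ) (x : List Θ), ¬ Simple k (3 * J) x →
    ∃ s : ℕ → ℕ, (∀ j, j + 1 < J → s j < s (j + 1)) ∧ ∀ j, j < J → NP k x (s j) := by
  classical
  intro J
  induction J with
  | zero => intro x _; exact ⟨fun _ => 0, fun j hj => by omega, fun j hj => by omega⟩
  | succ J ih =>
    intro x hx
    have hex : ∃ s, NP k x s := by
      by_contra h
      push Not at h
      exact hx ((simple_two hk h).mono (by omega))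
    obtain ⟨s0, hs0⟩ : ∃ s0, s0 = Nat.find hex := ⟨_, rfl⟩
    have h1 : NP k x s0 := by rw [hs0]; exact Nat.find_spec hex
    have h2 : ∀ s, s < s0 → ¬ NP k x s := fun s hs => Nat.find_min hex (by rw [← hs0]; exact hs)
    have h3 := h1.1
    have hy : Simple k 2 (x.take (s0 + 2 * k)) := by
      refine simple_two hk fun s hs => ?_
      have h4 := hs.1
      rw [List.length_take] at h4
      exact h2 s (by omega) (NP_take hs)
    have hsplit : x = x.take (s0 + 2 * k) ++ ([x[s0 + 2 * k]] ++ x.drop (s0 + 2 * k + 1)) := by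
      rw [List.singleton_append, List.getElem_cons_drop, List.take_append_drop]
    have hrest : ¬ Simple k (3 * J) (x.drop (s0 + 2 * k + 1)) := by
      intro h
      apply hx
      have h4 := hy.append ((simple_one (per_short hk (x := [x[s0 + 2 * k]])
        (by rw [List.length_singleton]; omega))).append h)
      rw [← hsplit] at h4
      exact h4.mono (by omega)
    obtain ⟨s', hs1, hs2⟩ := ih _ hrest
    refine ⟨fun j => Nat.casesOn j s0 fun i => (s0 + 2 * k + 1) + s' i, ?_, ?_⟩
    · intro j hj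
      rcases j with _ | j
      · show s0 < (s0 + 2 * k + 1) + s' 0
        omega
      · show (s0 + 2 * k + 1) + s' j < (s0 + 2 * k + 1) + s' (j + 1)
        have := hs1 j (by omega)
        omega
    · intro j hj
      rcases j with _ | j
      · exact h1
      · exact (NP_drop (by omega) _).1 (hs2 j (by omega))

end per

section rule

variable {Θ : Type} (k : ℕ) (idx : List Θ → ℕ)

/-- the rule for big marks -/
def TR (x : List Θ) : Prop :=
  NP k x k ∧ ∀ q, q ≤ 2 * k → q ≠ k → NP k x q → idx (wd k x k) < idx (wd k x q)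

/-- the mark at the position `p` is big -/
def BG (x : List Θ) (p : ℕ) : Prop :=
  p + (4 * k + 1) ≤ x.length ∧ NP k x (p + k) ∧
    ∀ q, q ≤ 2 * k → q ≠ k → NP k x (p + q) → idx (wd k x (p + k)) < idx (wd k x (p + q))

variable {k idx}

theorem BG_append {x : List Θ} (y : List Θ) {p : ℕ} (h : p + (4 * k + 1) ≤ x.length) :
    BG k idx (x ++ y) p ↔ BG k idx x p := by
  unfold BG
  rw [List.length_append, NP_append y (by omega), wd_append y (by omega)]
  refine and_congr ⟨fun _ => h, fun _ => by omega⟩ (and_congr Iff.rfl ?_)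
  refine forall_congr' fun q => forall_congr' fun hq => forall_congr' fun _ => ?_
  rw [NP_append y (by omega), wd_append y (by omega)]

theorem BG_drop {x : List Θ} {p : ℕ} (hp : p ≤ x.length) (q : ℕ) :
    BG k idx (x.drop p) q ↔ BG k idx x (p + q) := by
  unfold BG
  rw [List.length_drop, NP_drop hp, wd_drop]
  refine and_congr ⟨fun _ => by omega, fun _ => by omega⟩ (and_congr (by rw [add_assoc]) ?_)
  refine forall_congr' fun q' => forall_congr' fun hq => forall_congr' fun _ => ?_
  rw [NP_drop hp, wd_drop, add_assoc, add_assoc]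

theorem TR_iff {x : List Θ} : (4 * k + 1 ≤ x.length ∧ TR k idx (x.take (4 * k + 1))) ↔
    BG k idx x 0 := by
  have h0 : x.take (4 * k + 1) ++ x.drop (4 * k + 1) = x := List.take_append_drop _ _
  by_cases hl : 4 * k + 1 ≤ x.length
  · have h1 : (x.take (4 * k + 1)).length = 4 * k + 1 := by rw [List.length_take]; omega
    have h2 : BG k idx (x.take (4 * k + 1)) 0 ↔ BG k idx x 0 := by
      conv_rhs => rw [← h0]
      exact (BG_append _ (by omega)).symm
    rw [← h2]
    unfold BG TR
    simp only [Nat.zero_add]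
    constructor
    · rintro ⟨-, h3⟩; exact ⟨by omega, h3⟩
    · rintro ⟨-, h3⟩; exact ⟨hl, h3⟩
  · constructor
    · rintro ⟨h, -⟩; exact absurd h hl
    · rintro ⟨h, -⟩; omega

theorem BG_spacing {x : List Θ} {p d : ℕ} (h1 : BG k idx x p) (h2 : BG k idx x (p + d))
    (hd : 0 < d) (hdk : d ≤ k) : False := by
  obtain ⟨-, a1, a2⟩ := h1
  obtain ⟨-, b1, b2⟩ := h2
  have e1 := a2 (k + d) (by omega) (by omega) (by
    rwa [show p + (k + d) = p + d + k by omega])
  have e2 := b2 (k - d) (by omega) (by omega) (by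
    rwa [show p + d + (k - d) = p + k by omega])
  rw [show p + (k + d) = p + d + k by omega] at e1
  rw [show p + d + (k - d) = p + k by omega] at e2
  omega

/-- near every place without a small period there is a big mark -/
theorem BG_near (hinj : ∀ l l' : List Θ, l.length = 2 * k + 1 → l'.length = 2 * k + 1 →
    idx l = idx l' → l = l') {x : List Θ} : ∀ (v s : ℕ), idx (wd k x s) ≤ v → NP k x s →
      k * v + k ≤ s → s + k * v + (3 * k + 1) ≤ x.length →
        ∃ p, BG k idx x p ∧ s ≤ p + k + k * v ∧ p + k ≤ s + k * v := by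
  intro v
  induction v with
  | zero =>
    intro s hv hs h1 h2
    rw [Nat.mul_zero] at h1 h2
    refine ⟨s - k, ⟨by omega, by rwa [show s - k + k = s by omega], fun q hq hqk hN => ?_⟩,
      by omega, by omega⟩
    rw [show s - k + k = s by omega]
    by_contra hlt
    push Not at hlt
    have e1 : idx (wd k x s) = idx (wd k x (s - k + q)) := by omega
    have e2 := hinj _ _ (wd_length hs.1) (wd_length hN.1) e1
    obtain ⟨s', hs'⟩ : ∃ s', s' = s - k + q := ⟨_, rfl⟩
    rw [← hs'] at e2 hN
    have hlen := wd_length hs.1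
    rcases Nat.lt_or_ge s s' with h3 | h3
    · refine hs.2 ⟨s' - s, by omega, by omega, fun i hi => ?_⟩
      rw [hlen] at hi
      rw [wd_get (k := k) (p := s) hi, e2, wd_get (by omega)]
      congr 1; omega
    · refine hN.2 ⟨s - s', by omega, by omega, fun i hi => ?_⟩
      rw [wd_length hN.1] at hi
      rw [wd_get (k := k) (p := s') hi, ← e2, wd_get (by omega)]
      congr 1; omega
  | succ v ih =>
    intro s hv hs h1 h2
    have hkv : k * (v + 1) = k * v + k := by ring
    rw [hkv] at h1 h2 ⊢
    by_cases hB : BG k idx x (s - k)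
    · exact ⟨s - k, hB, by omega, by omega⟩
    · have h3 : ∃ q, q ≤ 2 * k ∧ q ≠ k ∧ NP k x (s - k + q) ∧
          idx (wd k x (s - k + q)) ≤ idx (wd k x s) := by
        by_contra h4
        push Not at h4
        refine hB ⟨by omega, by rwa [show s - k + k = s by omega], fun q hq hqk hN => ?_⟩
        rw [show s - k + k = s by omega]
        exact h4 q hq hqk hN
      obtain ⟨q, hq, hqk, hN, hle⟩ := h3
      obtain ⟨s', hs'⟩ : ∃ s', s' = s - k + q := ⟨_, rfl⟩
      rw [← hs'] at hN hle
      have hne : idx (wd k x s') ≠ idx (wd k x s) := by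
        intro e1
        have e2 := hinj _ _ (wd_length hs.1) (wd_length hN.1) e1.symm
        rcases Nat.lt_or_ge s s' with h3 | h3
        · refine hs.2 ⟨s' - s, by omega, by omega, fun i hi => ?_⟩
          rw [wd_length hs.1] at hi
          rw [wd_get (k := k) (p := s) hi, e2, wd_get (by omega)]
          congr 1; omega
        · refine hN.2 ⟨s - s', by omega, by omega, fun i hi => ?_⟩
          rw [wd_length hN.1] at hi
          rw [wd_get (k := k) (p := s') hi, ← e2, wd_get (by omega)]
          congr 1; omega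
      obtain ⟨p, hp1, hp2, hp3⟩ := ih s' (by omega) hN (by omega) (by omega)
      exact ⟨p, hp1, by omega, by omega⟩

theorem exists_idx [Finite Θ] (k : ℕ) : ∃ (r : ℕ) (idx : List Θ → ℕ), (∀ l, idx l ≤ r) ∧
    ∀ l l' : List Θ, l.length = 2 * k + 1 → l'.length = 2 * k + 1 → idx l = idx l' → l = l' := by
  classical
  have hfin : Finite {l : List Θ // l.length = 2 * k + 1} :=
    (List.finite_length_eq Θ (2 * k + 1)).to_subtype
  obtain ⟨n, ⟨e⟩⟩ := Finite.exists_equiv_fin {l : List Θ // l.length = 2 * k + 1}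
  refine ⟨n, fun l => if h : l.length = 2 * k + 1 then (e ⟨l, h⟩ : ℕ) else 0, fun l => ?_, ?_⟩
  · dsimp only
    split_ifs with h
    · exact (e ⟨l, h⟩).2.le
    · exact Nat.zero_le _
  · intro l l' h h' he
    dsimp only at he
    rw [dif_pos h, dif_pos h'] at he
    have h2 := e.injective (Fin.ext he)
    exact congrArg Subtype.val h2

end rule

section main

theorem typ_append {κ : Type} (P : ℕ) (L L' : List (κ × ℕ)) :
    typ P (L ++ L') = typ P L ++ typ P L' := List.map_append

theorem typ_length {κ : Type} (P : ℕ) (L : List (κ × ℕ)) : (typ P L).length = L.length :=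
  List.length_map _

theorem typ_take {κ : Type} (P n : ℕ) (L : List (κ × ℕ)) :
    typ P (L.take n) = (typ P L).take n := List.map_take

theorem typ_drop {κ : Type} (P n : ℕ) (L : List (κ × ℕ)) :
    typ P (L.drop n) = (typ P L).drop n := List.map_drop

theorem s_add {J : ℕ} {s : ℕ → ℕ} (h : ∀ j, j + 1 < J → s j < s (j + 1)) (j : ℕ) : ∀ i : ℕ,
    j + i < J → s j + i ≤ s (j + i) := by
  intro i
  induction i with
  | zero => intro _; exact le_rfl
  | succ i ih =>
    intro hi
    have h1 := ih (by omega)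
    have h2 := h (j + i) (by omega)
    rw [← add_assoc]
    rw [add_assoc j i 1] at h2
    rw [show j + (i + 1) = j + i + 1 by omega] at *
    omega

variable {α κ : Type}

theorem rich_good {U : Set (List α)} {m T : ℕ} {c : List α → κ} {P k n r : ℕ} (hk : 0 < k)
    {idx : List (κ × ZMod P) → ℕ} (hr : ∀ l, idx l ≤ r)
    (hinj : ∀ l l' : List (κ × ZMod P), l.length = 2 * k + 1 → l'.length = 2 * k + 1 →
      idx l = idx l' → l = l') {N : ℕ}
    (hN : 3 * (4 * (2 * (k * r) + 8 * k + 8) + 1) ≤ N) {g : List α}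
    (hg : Rich U m T c P k N n g) :
    Good U m T c P (4 * k + 1) (TR k idx) k n g := by
  classical
  obtain ⟨A, B, D, hZ, hA, hS, hO⟩ := hg
  obtain ⟨R, hR⟩ : ∃ R, R = 2 * (k * r) + 8 * k + 8 := ⟨_, rfl⟩
  rw [← hR] at hN
  obtain ⟨x, hx⟩ : ∃ x, x = typ P B := ⟨_, rfl⟩
  rw [← hx] at hS
  obtain ⟨s, hs1, hs2⟩ := many hk (4 * R + 1) x fun h => hS (h.mono hN)
  have a1 := s_add hs1 0 R (by omega)
  have a2 := s_add hs1 (0 + R) R (by omega)
  have a3 := s_add hs1 (0 + R + R) R (by omega)
  have a4 := s_add hs1 (0 + R + R + R) R (by omega)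
  have b4 := (hs2 (0 + R + R + R + R) (by omega)).1
  obtain ⟨p1, c1, c2, c3⟩ := BG_near hinj r (s (0 + R)) (hr _) (hs2 _ (by omega)) (by omega)
    (by omega)
  obtain ⟨p2, d1, d2, d3⟩ := BG_near hinj r (s (0 + R + R)) (hr _) (hs2 _ (by omega)) (by omega)
    (by omega)
  obtain ⟨p3, e1, e2, e3⟩ := BG_near hinj r (s (0 + R + R + R)) (hr _) (hs2 _ (by omega))
    (by omega) (by omega)
  have hex : ∃ t, p2 < t ∧ BG k idx x t := ⟨p3, by omega, e1⟩
  obtain ⟨t, ht⟩ : ∃ t, t = Nat.find hex := ⟨_, rfl⟩
  obtain ⟨t1, t2⟩ := Nat.find_spec hex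
  rw [← ht] at t1 t2
  have t3 : ∀ y, p2 < y → y < t → ¬ BG k idx x y := fun y h5 h6 h7 =>
    Nat.find_min hex (by rw [← ht]; exact h6) ⟨h5, h7⟩
  have t4 : p2 + k < t := by
    by_contra h
    push Not at h
    refine BG_spacing d1 (d := t - p2) ?_ (by omega) (by omega)
    rwa [show p2 + (t - p2) = t by omega]
  have t5 := t2.1
  have hxl : x.length = B.length := by rw [hx, typ_length]
  obtain ⟨X, hX⟩ : ∃ X, X = B.take (t - k) := ⟨_, rfl⟩
  obtain ⟨Y, hY⟩ : ∃ Y, Y = B.drop (t - k) := ⟨_, rfl⟩
  have hXY : B = X ++ Y := by rw [hX, hY, List.take_append_drop]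
  have hXl : X.length = t - k := by rw [hX, List.length_take]; omega
  have hYl : Y.length = B.length - (t - k) := by rw [hY, List.length_drop]
  have hYk : (Y.take k).length = k := by rw [List.length_take]; omega
  -- a mark of the row, seen from the text
  have key : ∀ (b : ℕ), b ≤ k →
      (Big P (4 * k + 1) (TR k idx) (Y.drop b ++ D) ↔ BG k idx x (t - k + b)) := by
    intro b hb
    unfold Big
    rw [← typ_length P, TR_iff, typ_append, typ_drop, BG_append]
    · rw [hY, typ_drop, List.drop_drop, ← hx, BG_drop (by omega)]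
      rfl
    · rw [List.length_drop, typ_length]
      omega
  refine ⟨A ++ X.take p1, X.drop p1, Y.take k, [], Y.drop k ++ D, ?_, ?_, ?_, hYk, ?_, ?_, ?_⟩
  · rw [hZ, hXY, List.nil_append]
    conv_lhs => rw [← List.take_append_drop p1 X, ← List.take_append_drop k Y]
    simp only [List.append_assoc]
  · intro h
    rw [List.append_eq_nil_iff] at h
    exact hA h.1
  · unfold Big
    rw [← typ_length P, TR_iff, typ_drop, BG_drop (by rw [typ_length]; omega)]
    have h1 : x = typ P X ++ typ P Y := by rw [hx, hXY, typ_append]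
    rw [h1] at c1
    exact (BG_append _ (by rw [typ_length]; omega)).1 c1
  · rw [key k le_rfl, show t - k + k = t by omega]
    exact t2
  · intro B1 B2 hB h1 h2 h3
    have h4 : B1.length + B2.length = k := by
      rw [← List.length_append, ← hB, hYk]
    have h5 : 0 < B1.length := List.length_pos_iff.2 h1
    have h6 : 0 < B2.length := List.length_pos_iff.2 h2
    have h7 : B2 ++ ([] ++ (Y.drop k ++ D)) = Y.drop B1.length ++ D := by
      have h8 : Y = B1 ++ (B2 ++ Y.drop k) := by
        rw [← List.append_assoc, ← hB, List.take_append_drop]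
      conv_rhs => rw [h8]
      rw [List.drop_left]
      simp
    rw [h7, key _ (by omega)] at h3
    exact t3 _ (by omega) (by omega) h3
  · intro B1 B2 hB h1
    have h2 := hO (X ++ B1) (B2 ++ Y.drop k) (by
      rw [hXY]
      conv_lhs => rw [← List.take_append_drop k Y]
      rw [hB]
      simp only [List.append_assoc]) (by
        intro h3
        rw [List.append_eq_nil_iff] at h3
        exact h1 h3.1)
    have h4 : A ++ (X ++ B1) = A ++ X.take p1 ++ X.drop p1 ++ B1 := by
      conv_lhs => rw [← List.take_append_drop p1 X]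
      simp only [List.append_assoc]
    rwa [h4] at h2

theorem Open.mono {U : Set (List α)} {m n n' : ℕ} (h : n' ≤ n) {g : List α}
    {A B : List (κ × ℕ)} (hO : Open U m n g A B) : Open U m n' g A B :=
  fun B1 B2 hB h1 x h2 h3 => hO B1 B2 hB h1 x h2 (by omega)

/-- one kind of marks -/
theorem regular_rich (n : ℕ) : ∃ k : ℕ, 0 < k ∧
    ∀ (κ : Type) [Finite κ] (P : ℕ), 0 < P → ∃ N : ℕ, 0 < N ∧
      ∀ (α : Type) [Finite α] (Q : Set (List α) → Prop), Slow.Cls Q → ∀ (A : DFA α (Fin n))
        (U : Set (List α)) (m T : ℕ) (c : List α → κ), 0 < m → (m = 1 ∨ N + m ≤ T) →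
        ∀ C : ℕ, Q {w : List α | w ∈ A.accepts ∧
          Clock.Dom {g | Rich U m T c P k N (N + T + m) g} C w} := by
  obtain ⟨k, hk, H⟩ := regular_look n
  refine ⟨k, hk, fun κ _ P hP => ?_⟩
  have : NeZero P := ⟨hP.ne'⟩
  obtain ⟨r, idx, hr, hinj⟩ := exists_idx (Θ := κ × ZMod P) k
  obtain ⟨N, hN, H⟩ := H κ P (4 * k + 1) hP (Nat.succ_pos _)
  refine ⟨N + 3 * (4 * (2 * (k * r) + 8 * k + 8) + 1), by omega,
    fun α _ Q hQ A U m T c hm hT C => ?_⟩
  have h1 := H α Q hQ A U m T c hm (hT.imp id fun h => by omega) (TR k idx) C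
  have h2 := Clock.Cls.dom hQ {g : List α | Rich U m T c P k
    (N + 3 * (4 * (2 * (k * r) + 8 * k + 8) + 1))
      (N + 3 * (4 * (2 * (k * r) + 8 * k + 8) + 1) + T + m) g} C
  have h3 := hQ.inter h2 h1
  convert h3 using 1
  ext w
  constructor
  · rintro ⟨hw, hD⟩
    refine ⟨hD, hw, fun u hu hl => ?_⟩
    obtain ⟨g, hg, hgu⟩ := hD u hu hl
    refine ⟨g, ?_, hgu⟩
    obtain ⟨A', B', D', e1, e2, e3, e4⟩ := hg
    exact rich_good hk hr hinj (N := N + 3 * (4 * (2 * (k * r) + 8 * k + 8) + 1)) (by omega)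
      ⟨A', B', D', e1, e2, e3, Open.mono (by omega) e4⟩
  · rintro ⟨hD, hw, -⟩
    exact ⟨hw, hD⟩

end main

end Vale.Agent.P329.Look
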