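import Vale.Agent.P329.H616.Look.Zone

set_option linter.all false

/-!
The last big mark on the left; every strand can be cut in a row of `K` long zones.
-/

namespace Vale.Agent.P329.Look

open Vale.Agent.P329.TwoMarks

namespace Dat

variable {κ V : Type} [AddCommGroup V] (D : Dat κ V)

section left

open Classical in
/-- the zones after the last big mark -/
noncomputable def lr : List (Zn κ V) → List (Zn κ V)
  | [] => []
  | z :: L => if lr L ≠ [] then lr L else if D.st L then L else []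

theorem lr_cons (z : Zn κ V) (L : List (Zn κ V)) :
    (D.lr L ≠ [] ∧ D.lr (z :: L) = D.lr L) ∨
      (D.lr L = [] ∧ D.st L ∧ D.lr (z :: L) = L) ∨
        (D.lr L = [] ∧ ¬ D.st L ∧ D.lr (z :: L) = []) := by
  by_cases h : D.lr L = []
  · by_cases h2 : D.st L
    · right; left
      refine ⟨h, h2, ?_⟩
      rw [lr, if_neg (not_not.2 h), if_pos h2]
    · right; right
      refine ⟨h, h2, ?_⟩
      rw [lr, if_neg (not_not.2 h), if_neg h2]
  · left
    refine ⟨h, ?_⟩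
    rw [lr, if_pos h]

theorem lr_spec (L : List (Zn κ V)) (h : D.lr L ≠ []) :
    ∃ A, A ≠ [] ∧ L = A ++ D.lr L ∧ D.st (D.lr L) := by
  induction L with
  | nil => exact absurd rfl h
  | cons z L ih =>
    rcases D.lr_cons z L with ⟨h1, h2⟩ | ⟨h1, h2, h3⟩ | ⟨h1, h2, h3⟩
    · obtain ⟨A, hA, hL, hs⟩ := ih h1
      refine ⟨z :: A, by simp, ?_, ?_⟩
      · rw [h2, List.cons_append, ← hL]
      · rw [h2]; exact hs
    · exact ⟨[z], by simp, by rw [h3]; rfl, by rw [h3]; exact h2⟩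
    · exact absurd h3 h

theorem lr_lr (L : List (Zn κ V)) : D.lr (D.lr L) = [] := by
  induction L with
  | nil => rfl
  | cons z L ih =>
    rcases D.lr_cons z L with ⟨h1, h2⟩ | ⟨h1, h2, h3⟩ | ⟨h1, h2, h3⟩
    · rw [h2]; exact ih
    · rw [h3]; exact h1
    · rw [h3]; rfl

theorem lr_ne {R : List (Zn κ V)} (hR : D.st R) (A : List (Zn κ V)) (hA : A ≠ []) :
    D.lr (A ++ R) ≠ [] := by
  induction A with
  | nil => exact absurd rfl hA
  | cons z A ih =>
    rw [List.cons_append]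
    have h0 : A = [] ∨ A ≠ [] := Classical.em _
    rcases h0 with h0 | h0
    · subst h0
      rw [List.nil_append]
      rcases D.lr_cons z R with ⟨h1, h2⟩ | ⟨h1, h2, h3⟩ | ⟨h1, h2, h3⟩
      · rw [h2]; exact h1
      · rw [h3]
        rintro rfl
        exact D.not_st_nil h2
      · exact absurd hR h2
    · rcases D.lr_cons z (A ++ R) with ⟨h1, h2⟩ | ⟨h1, h2, h3⟩ | ⟨h1, h2, h3⟩
      · rw [h2]; exact h1
      · exact absurd h1 (ih h0)
      · exact absurd h1 (ih h0)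

theorem lr_app {L : List (Zn κ V)} (h : D.lr L ≠ []) (A : List (Zn κ V)) :
    D.lr (A ++ L) = D.lr L := by
  induction A with
  | nil => rfl
  | cons z A ih =>
    rw [List.cons_append, lr, if_pos (by rw [ih]; exact h), ih]

theorem lr_app_right {L : List (Zn κ V)} (h : D.lr L ≠ []) (B : List (Zn κ V)) :
    D.lr (L ++ B) ≠ [] := by
  obtain ⟨A, hA, hL, hs⟩ := D.lr_spec L h
  rw [hL, List.append_assoc]
  exact D.lr_ne (D.st_app hs B) A hA

theorem lr_vy (L : List (Zn κ V)) (h : D.lr L = []) : ∀ (y : V) (b : List (Zn κ V)),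
    D.vy y b L [] = (y, b ++ L) := by
  induction L with
  | nil => intro y b; rw [vy_nil, List.append_nil]
  | cons z L ih =>
    intro y b
    rcases D.lr_cons z L with ⟨h1, h2⟩ | ⟨h1, h2, h3⟩ | ⟨h1, h2, h3⟩
    · exact absurd (h2.symm.trans h) h1
    · rw [h3] at h
      rw [h] at h2
      exact absurd h2 D.not_st_nil
    · rw [D.vy_neg (by rwa [List.append_nil]), ih h1]
      simp

/-- the value at the last big mark -/
theorem left_value (x : V) (L : List (Zn κ V)) (h : D.lr L ≠ []) :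
    ∃ y, ∀ Q, D.vy x [] L Q = D.vy y [] (D.lr L) Q := by
  obtain ⟨A, hA, hL, hs⟩ := D.lr_spec L h
  refine ⟨(D.vy x [] A (D.lr L)).1, fun Q => ?_⟩
  conv_lhs => rw [hL]
  rw [D.vy_append, D.vy_congr A (D.cx_st hs Q), D.vy_reset hs A hA]

end left

section serve

theorem cl_len (D0 : List (Zn κ V)) : ∀ (C : List (Zn κ V)),
    (∀ A1 A2 : List (Zn κ V), C = A1 ++ A2 → A2 ≠ [] → ¬ D.st (A2 ++ D0)) →
      D.cl (C ++ D0) = D.cl D0 + (C.length : ZMod D.K) ∧ D.fz (C ++ D0) = C ++ D.fz D0 ∧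
        D.fr (C ++ D0) = D.fr D0 := by
  intro C
  induction C with
  | nil => intro _; simp
  | cons z C ih =>
    intro h
    obtain ⟨i1, i2, i3⟩ := ih fun A1 A2 hA => h (z :: A1) A2 (by rw [hA]; rfl)
    have h1 : ¬ D.st (z :: (C ++ D0)) := h [] (z :: C) rfl (by simp)
    refine ⟨?_, ?_, ?_⟩
    · rw [List.cons_append, D.cl_not h1, i1, List.length_cons]
      push_cast
      ring
    · rw [List.cons_append, D.fz_not h1, i2]; rfl
    · rw [List.cons_append, D.fr_not h1, i3]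

theorem crt_from {M K : ℕ} (hM : 0 < M) (a : ℕ → ℕ) (t0 : ℕ) :
    ∃ t, t0 ≤ t ∧ t < t0 + big M K ∧ ∀ r ≤ K, t ≡ a r [MOD md M K r] := by
  obtain ⟨i, hi, h⟩ := exists_crt (K := K) hM (fun r => a r + (md M K r * t0 - t0))
  refine ⟨i + t0, by omega, by omega, fun r hr => ?_⟩
  have h1 := (h r hr).add_right t0
  refine h1.trans ?_
  have h2 : t0 ≤ md M K r * t0 := Nat.le_mul_of_pos_left _ (md_pos hM r)
  have h3 : a r + (md M K r * t0 - t0) + t0 = a r + md M K r * t0 := by omega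
  show a r + (md M K r * t0 - t0) + t0 ≡ a r [MOD md M K r]
  rw [h3]
  show (a r + md M K r * t0) % _ = a r % _
  rw [Nat.add_mul_mod_self_left]

theorem kp_val {s t : ℕ} {v : ZMod D.M} (h : t ≡ v.val [MOD md D.M D.mu s]) : D.kp s t = v := by
  have : NeZero D.M := ⟨D.pM.ne'⟩
  unfold kp
  have e7 : t % md D.M D.mu s = v.val % md D.M D.mu s := h
  rw [e7, Nat.mod_eq_of_lt ((ZMod.val_lt _).trans_le (le_md _)), ZMod.natCast_zmod_val]

/-- the number of letters which a long zone must have -/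
def Lg : ℕ := D.P * (big D.M D.mu + 1)

/-- in a row of `K` zones every strand is cut -/
theorem serve (x : V) (Aw C D0 : List (Zn κ V)) (hlen : C.length = D.K)
    (hnot : ∀ C1 C2 : List (Zn κ V), C = C1 ++ C2 → C1 ≠ [] → C2 ≠ [] → ¬ D.st (C2 ++ D0))
    (hD : D.hsT D0) :
    ∃ (C1 : List (Zn κ V)) (X : Zn κ V) (C2 : List (Zn κ V)), C = C1 ++ X :: C2 ∧
      ∀ a, a + D.Lg ≤ X.j → ∃ i, a ≤ i ∧ i < a + D.Lg ∧ D.LA x (Aw ++ C1) i ∧
        D.RA (X.j - i) X.q (C2 ++ D0) := by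
  classical
  have : NeZero D.M := ⟨D.pM.ne'⟩
  have : NeZero D.K := ⟨D.pK.ne'⟩
  rcases hp : D.vy x [] Aw (C ++ D0) with ⟨ys, bs⟩
  obtain ⟨ρ, hρ⟩ := D.nd_surj (D.sl (bs ++ (C ++ D.fz D0)) (D.fr D0),
    actZ (bs ++ (C ++ D.fz D0)), ys)
  -- the zone of class `ρ`
  set d := (ρ - D.cl D0).val with hd
  have hdK : d < D.K := ZMod.val_lt _
  have hlt : D.K - 1 - d < C.length := by omega
  obtain ⟨X, hX⟩ : ∃ X, C[D.K - 1 - d] = X := ⟨_, rfl⟩
  have hC : C = C.take (D.K - 1 - d) ++ X :: C.drop (D.K - 1 - d + 1) := by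
    rw [← hX, List.getElem_cons_drop, List.take_append_drop]
  set C1 := C.take (D.K - 1 - d) with hC1
  set C2 := C.drop (D.K - 1 - d + 1) with hC2
  have hC2l : C2.length = d := by rw [hC2, List.length_drop]; omega
  obtain ⟨f1, f2, f3⟩ := D.cl_len D0 C2 fun A1 A2 hA hne => hnot (C1 ++ X :: A1) A2
    (by rw [hC, hA]; simp) (by simp) hne
  have hcl : D.cl (C2 ++ D0) = ρ := by
    rw [f1, hC2l, hd, ZMod.natCast_zmod_val]; ring
  have hvy : D.vy x [] (Aw ++ C1) (X :: (C2 ++ D0)) = (ys, bs ++ C1) := by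
    rw [D.vy_append]
    have e1 : C1 ++ X :: (C2 ++ D0) = C ++ D0 := by
      conv_rhs => rw [hC]
      simp
    rw [e1, hp]
    refine D.vy_not C1 _ (fun A1 A2 hA hne => ?_) ys bs
    have h1 := hnot A1 (A2 ++ X :: C2) (by rw [hC, hA]; simp) hne (by simp)
    simpa using h1
  set l := C2 ++ D0 with hl
  have hBeq : bs ++ (C ++ D.fz D0) = (bs ++ C1) ++ X :: D.fz l := by
    rw [f2]
    conv_lhs => rw [hC]
    simp
  have hfr : D.fr D0 = D.fr l := f3.symm
  have hT : D.hsT l := D.hsT_app C2 hD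
  obtain ⟨i', hi', j', hj', hs⟩ := D.complete ρ (actZ (bs ++ C1)) X.g (actZ (D.fz l)) (by
    rw [hρ, hBeq]
    show _ = actZ ((bs ++ C1) ++ X :: D.fz l)
    rw [actZ_append (bs ++ C1)]
    rfl)
  rw [hρ] at hi' hs
  dsimp only at hi' hs
  rw [hBeq, hfr, D.sl_append, D.sl_cons, List.cons_append, D.fz_fr, hcl] at hs
  refine ⟨C1, X, C2, hC, fun a ha => ?_⟩
  obtain ⟨n, hn⟩ : ∃ n, n = X.j := ⟨_, rfl⟩
  rw [← hn] at ha ⊢
  set xs := D.sl (D.fz l) (D.fr l) with hxs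
  set τ : ZMod D.M := j' - xs + ((n / D.P : ℕ) : ZMod D.M) with hτ
  -- the residues
  have hr : ∀ p : ZMod D.K × (κ × ZMod D.P) × (Fin D.W → Option (κ × ZMod D.P)), ∃ r : ℕ,
      ((p.1 = ρ ∧ p.2.1.1 = X.q ∧ p.2.2 = D.cx l) → r = n / D.P) ∧
      (¬ (p.1 = ρ ∧ p.2.1.1 = X.q ∧ p.2.2 = D.cx l) → ∃ v : ZMod D.M, r = v.val ∧
        ∀ l' : List (Zn κ V), D.cl l' = p.1 → D.cx l' = p.2.2 →
          D.sl (D.vy x [] (Aw ++ C1) (⟨n, p.2.1.1, 0⟩ :: l')).2 (⟨n, p.2.1.1, 0⟩ :: l') + v - τ ∈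
            D.I p.1 (D.vy x [] (Aw ++ C1) (⟨n, p.2.1.1, 0⟩ :: l')).1
              (actZ (D.vy x [] (Aw ++ C1) (⟨n, p.2.1.1, 0⟩ :: l')).2)) := by
    rintro ⟨r, ⟨q, θ⟩, f⟩
    dsimp only
    by_cases h1 : r = ρ ∧ q = X.q ∧ f = D.cx l
    · exact ⟨n / D.P, fun _ => rfl, fun h => absurd h1 h⟩
    · by_cases h2 : ∃ l0 : List (Zn κ V), D.cl l0 = r ∧ D.cx l0 = f
      · obtain ⟨l0, h3, h4⟩ := h2
        obtain ⟨v0, hv0⟩ := D.ne r (D.vy x [] (Aw ++ C1) (⟨n, q, 0⟩ :: l0)).1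
          (actZ (D.vy x [] (Aw ++ C1) (⟨n, q, 0⟩ :: l0)).2)
        refine ⟨(v0 - D.sl (D.vy x [] (Aw ++ C1) (⟨n, q, 0⟩ :: l0)).2 (⟨n, q, 0⟩ :: l0) + τ).val,
          fun h => absurd h h1, fun _ => ⟨_, rfl, fun l' h5 h6 => ?_⟩⟩
        have e1 : D.cx ((⟨n, q, 0⟩ : Zn κ V) :: l') = D.cx (⟨n, q, 0⟩ :: l0) :=
          D.cx_cons rfl (h6.trans h4.symm)
        have e2 : D.cl ((⟨n, q, 0⟩ : Zn κ V) :: l') = D.cl (⟨n, q, 0⟩ :: l0) :=
          D.cl_app [⟨n, q, 0⟩] (h6.trans h4.symm) (h5.trans h3.symm)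
        rw [D.vy_congr _ e1, D.sl_congr _ e1 e2]
        convert hv0 using 1
        ring
      · refine ⟨(0 : ZMod D.M).val, fun h => absurd h h1, fun _ => ⟨0, rfl, fun l' h5 h6 => ?_⟩⟩
        exact absurd ⟨l', h5, h6⟩ h2
  choose r hr1 hr2 using hr
  have hinj : Function.Injective (fun p : ZMod D.K × (κ × ZMod D.P) ×
      (Fin D.W → Option (κ × ZMod D.P)) => D.ix p.1 p.2.1 p.2.2) := by
    rintro ⟨r1, θ1, f1⟩ ⟨r2, θ2, f2⟩ h
    obtain ⟨rfl, rfl, rfl⟩ := D.ix_inj _ _ _ _ _ _ h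
    rfl
  let res : ℕ → ℕ := Function.extend (fun p : ZMod D.K × (κ × ZMod D.P) ×
      (Fin D.W → Option (κ × ZMod D.P)) => D.ix p.1 p.2.1 p.2.2) r (fun _ => τ.val)
  have hres0 : res 0 = τ.val := Function.extend_apply' _ _ _ (by
    rintro ⟨p, hp0⟩
    exact (D.ix_pos _ _ _).ne' hp0)
  have hres : ∀ p : ZMod D.K × (κ × ZMod D.P) × (Fin D.W → Option (κ × ZMod D.P)),
      res (D.ix p.1 p.2.1 p.2.2) = r p := fun p => hinj.extend_apply r _ p
  obtain ⟨t, ht0, ht1, hmod⟩ := crt_from (K := D.mu) D.pM res (a / D.P + 1)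
  have htτ : (t : ZMod D.M) = τ := by
    have h : t ≡ τ.val [MOD D.M] := by
      have := hmod 0 (Nat.zero_le _)
      rwa [hres0] at this
    rw [← ZMod.natCast_eq_natCast_iff] at h
    rw [h, ZMod.natCast_zmod_val]
  -- the number of letters on the left
  have hPpos := D.pP
  have hnP := Nat.div_add_mod n D.P
  have hnm := Nat.mod_lt n hPpos
  have haP := Nat.div_add_mod a D.P
  have ham := Nat.mod_lt a hPpos
  have hLg : D.Lg = D.P * big D.M D.mu + D.P := by unfold Lg; ring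
  have ht0' : D.P * (a / D.P) + D.P ≤ D.P * t := by
    have := Nat.mul_le_mul_left D.P ht0
    rwa [Nat.mul_add, Nat.mul_one] at this
  have ht1' : D.P * t + D.P ≤ D.P * (a / D.P) + D.P + D.P * big D.M D.mu := by
    have h1 : t + 1 ≤ a / D.P + 1 + big D.M D.mu := ht1
    have := Nat.mul_le_mul_left D.P h1
    calc D.P * t + D.P = D.P * (t + 1) := by ring
      _ ≤ _ := this
      _ = _ := by ring
  have hidiv : (D.P * t + n % D.P) / D.P = t := by
    rw [Nat.mul_add_div hPpos, Nat.div_eq_of_lt hnm, add_zero]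
  have htn : t ≤ n / D.P := by
    rw [Nat.le_div_iff_mul_le hPpos, mul_comm]
    omega
  have hji : n - (D.P * t + n % D.P) = D.P * (n / D.P - t) := by
    rw [Nat.mul_sub]; omega
  have hjdiv : (n - (D.P * t + n % D.P)) / D.P = n / D.P - t := by
    rw [hji, Nat.mul_div_cancel_left _ hPpos]
  have hicast : ((D.P * t + n % D.P : ℕ) : ZMod D.P) = (n : ZMod D.P) := by
    rw [Nat.cast_add, Nat.cast_mul, ZMod.natCast_self, zero_mul, zero_add, ZMod.natCast_mod]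
  refine ⟨D.P * t + n % D.P, by omega, by omega, ?_, ?_⟩
  · intro q l'
    rw [hicast, hidiv]
    obtain ⟨e1, e2⟩ := D.cx_cl_mark (i := D.P * t + n % D.P) (i' := n) (q := q) (g := 0)
      (g' := 0) l' hicast
    rw [D.vy_congr _ e1, D.sl_congr _ e1 e2]
    by_cases h1 : D.cl l' = ρ ∧ q = X.q ∧ D.cx l' = D.cx l
    · obtain ⟨h2, rfl, h3⟩ := h1
      have h4 := hmod (D.ix (D.cl l') (X.q, (n : ZMod D.P)) (D.cx l')) (D.ix_le _ _ _)
      rw [hres (D.cl l', (X.q, (n : ZMod D.P)), D.cx l'),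
        hr1 (D.cl l', (X.q, (n : ZMod D.P)), D.cx l') ⟨h2, rfl, h3⟩] at h4
      have e3 : D.cx ((⟨n, X.q, 0⟩ : Zn κ V) :: l') = D.cx (X :: l) :=
        D.cx_cons (by unfold ty; rw [hn]) h3
      have e4 : D.cl ((⟨n, X.q, 0⟩ : Zn κ V) :: l') = D.cl (X :: l) := by
        obtain ⟨_, e5⟩ := D.cx_cl_mark (i := n) (i' := n) (q := X.q) (g := 0) (g' := X.g) l rfl
        have e6 : (⟨n, X.q, X.g⟩ : Zn κ V) = X := by rw [hn]
        rw [e6] at e5
        rw [← e5]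
        exact D.cl_app [⟨n, X.q, 0⟩] h3 (h2.trans hcl.symm)
      rw [D.vy_congr _ e3, D.sl_congr _ e3 e4, hvy]
      dsimp only
      have h5 : D.kp (D.ix (D.cl l') (X.q, (n : ZMod D.P)) (D.cx l')) t =
          D.kp (D.ix ρ (D.ty X) (D.cx l)) (n / D.P) := by
        unfold ty
        rw [← hn, h2, h3]
        rw [h2, h3] at h4
        unfold kp
        exact congrArg _ h4
      rw [h5, h2]
      convert hi' using 1
      rw [htτ, hτ]
      unfold ct at hs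
      rw [← hn] at hs
      linear_combination hs
    · obtain ⟨v, hv, h2⟩ := hr2 (D.cl l', (q, (n : ZMod D.P)), D.cx l') h1
      have h4 := hmod (D.ix (D.cl l') (q, (n : ZMod D.P)) (D.cx l')) (D.ix_le _ _ _)
      rw [hres (D.cl l', (q, (n : ZMod D.P)), D.cx l'), hv] at h4
      rw [D.kp_val h4, htτ]
      exact h2 l' rfl rfl
  · refine ⟨hT, ?_, fun θ => ?_, ?_⟩
    · rw [hji]; exact Dvd.intro _ rfl
    · rw [hjdiv, hcl]
      have h4 := hmod (D.ix ρ (X.q, θ) (D.cx l)) (D.ix_le _ _ _)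
      rw [hres (ρ, (X.q, θ), D.cx l), hr1 (ρ, (X.q, θ), D.cx l) ⟨rfl, rfl, rfl⟩] at h4
      exact (Nat.modEq_iff_dvd' htn).1 h4
    · rw [hjdiv, hcl, Nat.cast_sub htn, htτ]
      convert hj' using 1
      rw [hτ]
      ring

end serve

end Dat

end Vale.Agent.P329.Look
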