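import Vale.Agent.P329.H616.Look.Serve
import Vale.Agent.P329.Clock.Cut

set_option linter.all false

/-!
Texts: boundaries, zones, and the cut system.
-/

namespace Vale.Agent.P329.Look

open Vale.Agent.P329 Vale.Agent.P329.Slow Vale.Agent.P329.Mark Vale.Agent.P329.Clock
open Vale.Agent.P329.TwoMarks (md big)

/-- boundaries: `B s` says that there is a boundary at the beginning of the suffix `s` -/
structure Bd (α κ : Type) where
  B : List α → Prop
  col : List α → κ
  n0 : ℕ
  pos : 0 < n0
  short : ∀ s, B s → n0 ≤ s.length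
  loc : ∀ s s' : List α, n0 ≤ s.length → (B (s ++ s') ↔ B s)
  colloc : ∀ s s' : List α, n0 ≤ s.length → col (s ++ s') = col s
  okL : List α → Prop
  okR : List α → Prop
  okL_app : ∀ u k : List α, okL k → okL (u ++ k)
  okR_app : ∀ k z : List α, okR k → okR (k ++ z)
  junc : ∀ u z : List α, okL u → okR z → ∀ v : List α, v <:+ u → v ≠ [] → (B (v ++ z) ↔ B v)

section zones

variable {α κ V : Type} [AddCommGroup V] (M : α → V →+ V)

/-- the action of a word -/
def ah : List α → (V →+ V)
  | [] => AddMonoidHom.id V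
  | a :: w => (ah w).comp (M a)

theorem ah_apply (w : List α) : ∀ x : V, ah M w x = act M w x := by
  induction w with
  | nil => intro x; rfl
  | cons a w ih => intro x; exact ih (M a x)

theorem ah_append (u v : List α) : ah M (u ++ v) = (ah M v).comp (ah M u) := by
  induction u with
  | nil => rfl
  | cons a u ih =>
    show (ah M (u ++ v)).comp (M a) = _
    rw [ih]
    rfl

/-- put a word in front of the first zone -/
def mg (u : List α) : List (Zn κ V) → List (Zn κ V)
  | [] => []
  | z :: l => ⟨u.length + z.j, z.q, z.g.comp (ah M u)⟩ :: l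

theorem mg_nil (L : List (Zn κ V)) : mg M [] L = L := by
  cases L with
  | nil => rfl
  | cons z l =>
    obtain ⟨j, q, g⟩ := z
    show (⟨0 + j, q, g.comp (AddMonoidHom.id V)⟩ : Zn κ V) :: l = _
    rw [zero_add, AddMonoidHom.comp_id]

theorem mg_mg (u v : List α) (L : List (Zn κ V)) : mg M u (mg M v L) = mg M (u ++ v) L := by
  cases L with
  | nil => rfl
  | cons z l =>
    obtain ⟨j, q, g⟩ := z
    show (⟨u.length + (v.length + j), q, (g.comp (ah M v)).comp (ah M u)⟩ : Zn κ V) :: l =
      ⟨(u ++ v).length + j, q, g.comp (ah M (u ++ v))⟩ :: l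
    rw [ah_append, List.length_append, add_assoc, AddMonoidHom.comp_assoc]

theorem mg_append (u : List α) {L : List (Zn κ V)} (h : L ≠ []) (L' : List (Zn κ V)) :
    mg M u (L ++ L') = mg M u L ++ L' := by
  cases L with
  | nil => exact absurd rfl h
  | cons z l => rfl

theorem mg_ne (u : List α) {L : List (Zn κ V)} (h : L ≠ []) : mg M u L ≠ [] := by
  cases L with
  | nil => exact absurd rfl h
  | cons z l => exact List.cons_ne_nil _ _

theorem mg_eq_nil {u : List α} {L : List (Zn κ V)} (h : mg M u L = []) : L = [] := by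
  by_contra h2
  exact mg_ne M u h2 h

theorem actZ_mg (u : List α) {L : List (Zn κ V)} (h : L ≠ []) :
    actZ (mg M u L) = (actZ L).comp (ah M u) := by
  cases L with
  | nil => exact absurd rfl h
  | cons z l => rfl

/-- the total length -/
def len : List (Zn κ V) → ℕ
  | [] => 0
  | z :: l => z.j + len l

theorem len_append (L L' : List (Zn κ V)) : len (L ++ L') = len L + len L' := by
  induction L with
  | nil => simp [len]
  | cons z l ih =>
    show z.j + len (l ++ L') = z.j + len l + len L'
    rw [ih, add_assoc]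

theorem len_mg (u : List α) {L : List (Zn κ V)} (h : L ≠ []) :
    len (mg M u L) = u.length + len L := by
  cases L with
  | nil => exact absurd rfl h
  | cons z l =>
    show u.length + z.j + len l = u.length + (z.j + len l)
    rw [add_assoc]

variable (T : Bd α κ)

open Classical in
/-- the zone which ends at the beginning of `s` -/
noncomputable def nw (s : List α) : List (Zn κ V) :=
  if T.B s then [⟨0, T.col s, AddMonoidHom.id V⟩] else []

theorem nw_pos {s : List α} (h : T.B s) : nw (V := V) T s = [⟨0, T.col s, AddMonoidHom.id V⟩] :=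
  if_pos h

theorem nw_neg {s : List α} (h : ¬ T.B s) : nw (V := V) T s = [] := if_neg h

/-- the zones of a word -/
noncomputable def Z : List α → List (Zn κ V)
  | [] => []
  | a :: w => nw T (a :: w) ++ mg M [a] (Z w)

theorem Z_cons (a : α) (w : List α) : Z M T (a :: w) = nw T (a :: w) ++ mg M [a] (Z M T w) := rfl

open Classical in
/-- the part of the word after the last boundary -/
noncomputable def tl : List α → List α
  | [] => []
  | a :: w => if Z M T w = [] then a :: w else tl w

theorem tl_pos {w : List α} (h : Z M T w = []) (a : α) : tl M T (a :: w) = a :: w := if_pos h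

theorem tl_neg {w : List α} (h : Z M T w ≠ []) (a : α) : tl M T (a :: w) = tl M T w := if_neg h

theorem Z_nil_of_cons {a : α} {w : List α} (h : Z M T (a :: w) = []) : Z M T w = [] := by
  rw [Z_cons, List.append_eq_nil_iff] at h
  exact mg_eq_nil M h.2

theorem tl_of_nil {u : List α} (h : Z M T u = []) : tl M T u = u := by
  cases u with
  | nil => rfl
  | cons a w => exact tl_pos M T (Z_nil_of_cons M T h) a

theorem Z_ne (u : List α) {z : List α} (h : Z M T z ≠ []) : Z M T (u ++ z) ≠ [] := by
  induction u with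
  | nil => exact h
  | cons a u ih =>
    intro h2
    exact ih (Z_nil_of_cons M T h2)

theorem tl_app (u : List α) {z : List α} (h : Z M T z ≠ []) : tl M T (u ++ z) = tl M T z := by
  induction u with
  | nil => rfl
  | cons a u ih =>
    rw [List.cons_append, tl_neg M T (Z_ne M T u h), ih]

theorem nw_app {s : List α} (h : T.n0 ≤ s.length) (s' : List α) :
    nw (V := V) T (s ++ s') = nw T s := by
  by_cases hB : T.B s
  · rw [nw_pos T hB, nw_pos T ((T.loc s s' h).2 hB), T.colloc s s' h]
  · rw [nw_neg T hB, nw_neg T (fun h2 => hB ((T.loc s s' h).1 h2))]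

theorem nw_short {s : List α} (h : s.length < T.n0) : nw (V := V) T s = [] :=
  nw_neg T fun h2 => absurd (T.short s h2) (by omega)

theorem Z_junc (z : List α) : ∀ u : List α,
    (∀ v : List α, v <:+ u → v ≠ [] → (T.B (v ++ z) ↔ T.B v)) →
      Z M T (u ++ z) = Z M T u ++ mg M (tl M T u) (Z M T z) := by
  intro u
  induction u with
  | nil =>
    intro _
    show Z M T z = [] ++ mg M [] (Z M T z)
    rw [mg_nil]; rfl
  | cons a u ih =>
    intro h
    have h1 := ih fun v hv hne => h v (hv.trans (List.suffix_cons a u)) hne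
    have h2 : nw (V := V) T ((a :: u) ++ z) = nw T (a :: u) := by
      have h3 := h (a :: u) List.suffix_rfl (by simp)
      by_cases hB : T.B (a :: u)
      · rw [nw_pos T hB, nw_pos T (h3.2 hB), T.colloc _ z (T.short _ hB)]
      · rw [nw_neg T hB, nw_neg T fun h4 => hB (h3.1 h4)]
    rw [List.cons_append, Z_cons, Z_cons, h1, ← List.cons_append, h2]
    by_cases h4 : Z M T u = []
    · rw [h4, tl_pos M T h4, tl_of_nil M T h4, List.nil_append, mg_mg, List.append_assoc]
      rfl
    · rw [tl_neg M T h4, mg_append M _ h4, List.append_assoc]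

theorem Z_short {u : List α} (h : u.length < T.n0) : Z M T u = [] := by
  induction u with
  | nil => rfl
  | cons a u ih =>
    rw [Z_cons, nw_short T h, ih (by rw [List.length_cons] at h; omega)]
    rfl

theorem Z_pre (u z : List α) : ∃ L', Z M T (u ++ z) = Z M T u ++ L' := by
  induction u with
  | nil => exact ⟨_, rfl⟩
  | cons a u ih =>
    obtain ⟨L', hL'⟩ := ih
    by_cases h : (a :: u).length < T.n0
    · exact ⟨_, by rw [Z_short M T h]; rfl⟩
    · rw [List.cons_append, Z_cons, Z_cons, ← List.cons_append, nw_app T (by omega), hL']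
      by_cases h4 : Z M T u = []
      · rw [h4]
        exact ⟨mg M [a] L', by simp [mg]⟩
      · exact ⟨L', by rw [mg_append M _ h4, List.append_assoc]⟩

theorem Z_suf (u : List α) {k : List α} {A R : List (Zn κ V)} (h : Z M T k = A ++ R)
    (hA : A ≠ []) : ∃ A', A' ≠ [] ∧ Z M T (u ++ k) = A' ++ R := by
  induction u with
  | nil => exact ⟨A, hA, h⟩
  | cons a u ih =>
    obtain ⟨A', hA', h2⟩ := ih
    refine ⟨nw T (a :: (u ++ k)) ++ mg M [a] A', ?_, ?_⟩
    · intro h3
      rw [List.append_eq_nil_iff] at h3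
      exact mg_ne M [a] hA' h3.2
    · rw [List.cons_append, Z_cons, h2, mg_append M _ hA', List.append_assoc]

theorem actZ_nw (s : List α) (L : List (Zn κ V)) : actZ (nw T s ++ L) = actZ L := by
  by_cases hB : T.B s
  · rw [nw_pos T hB]; rfl
  · rw [nw_neg T hB]; rfl

theorem Z_act (w : List α) : ∀ x : V, act M w x = act M (tl M T w) (actZ (Z M T w) x) := by
  induction w with
  | nil => intro x; rfl
  | cons a w ih =>
    intro x
    rw [Z_cons, actZ_nw]
    by_cases h : Z M T w = []
    · rw [h, tl_pos M T h]; rfl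
    · rw [tl_neg M T h, actZ_mg M _ h]
      exact ih (M a x)

theorem tl_len (w : List α) : (tl M T w).length + len (Z M T w) = w.length := by
  induction w with
  | nil => rfl
  | cons a w ih =>
    have h0 : len (nw (V := V) T (a :: w)) = 0 := by
      by_cases hB : T.B (a :: w)
      · rw [nw_pos T hB]; rfl
      · rw [nw_neg T hB]; rfl
    rw [Z_cons, len_append, h0, zero_add]
    by_cases h : Z M T w = []
    · rw [h, tl_pos M T h]; rfl
    · rw [tl_neg M T h, len_mg M _ h, List.length_cons, List.length_cons, List.length_nil, ← ih]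
      omega

/-- the zones which can be seen in the first `n` letters -/
def pre : ℕ → List (Zn κ V) → List (Zn κ V)
  | _, [] => []
  | n, z :: L => if z.j + T.n0 ≤ n then z :: pre (n - z.j) L else []

theorem pre_small {n : ℕ} (h : n < T.n0) (L : List (Zn κ V)) : pre T n L = [] := by
  cases L with
  | nil => rfl
  | cons z L => rw [pre, if_neg (by omega)]

theorem pre_mg (a : α) (n : ℕ) (L : List (Zn κ V)) :
    pre T (n + 1) (mg M [a] L) = mg M [a] (pre T n L) := by
  cases L with
  | nil => rfl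
  | cons z L =>
    show pre T (n + 1) (⟨[a].length + z.j, z.q, z.g.comp (ah M [a])⟩ :: L) = _
    rw [pre, pre]
    dsimp only
    rw [List.length_singleton]
    by_cases h : z.j + T.n0 ≤ n
    · rw [if_pos (by omega), if_pos h, show n + 1 - (1 + z.j) = n - z.j by omega]
      rfl
    · rw [if_neg (by omega), if_neg h]
      rfl

theorem pre_nw {n : ℕ} (h : T.n0 ≤ n) (s : List α) (L : List (Zn κ V)) :
    pre T n (nw T s ++ L) = nw T s ++ pre T n L := by
  by_cases hB : T.B s
  · rw [nw_pos T hB, List.singleton_append, pre, if_pos (by dsimp only; omega)]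
    rfl
  · rw [nw_neg T hB]; rfl

theorem Z_take (w : List α) : ∀ n : ℕ, Z M T (w.take n) = pre T n (Z M T w) := by
  induction w with
  | nil => intro n; rw [List.take_nil]; rfl
  | cons a w ih =>
    intro n
    rcases n with _ | n
    · rw [pre_small T T.pos]; rfl
    · rw [List.take_succ_cons, Z_cons, ih]
      by_cases h : T.n0 ≤ n + 1
      · rw [Z_cons, pre_nw T h, pre_mg]
        congr 1
        by_cases h2 : T.n0 ≤ (a :: w.take n).length
        · have h3 : a :: w = (a :: w.take n) ++ w.drop n := by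
            rw [List.cons_append, List.take_append_drop]
          rw [h3, nw_app T h2]
        · rw [List.length_cons, List.length_take] at h2
          rw [List.take_of_length_le (by omega)]
      · rw [pre_small T (by omega : n < T.n0), pre_small T (by omega : n + 1 < T.n0)]
        rw [nw_short T]
        · rfl
        · rw [List.length_cons, List.length_take]; omega

theorem pre_len {i : ℕ} (h0 : T.n0 ≤ i) {X : Zn κ V} (hX : i ≤ X.j) (L : List (Zn κ V)) :
    ∀ A : List (Zn κ V), pre T (len A + i) (A ++ X :: L) = A := by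
  intro A
  have := T.pos
  induction A with
  | nil =>
    show pre T (0 + i) (X :: L) = []
    rw [pre, if_neg (by omega)]
  | cons z A ih =>
    show pre T (z.j + len A + i) (z :: (A ++ X :: L)) = _
    rw [pre, if_pos (by omega), show z.j + len A + i - z.j = len A + i by omega, ih]

end zones

section sys

variable {α κ V : Type} [AddCommGroup V] (M : α → V →+ V) (T : Bd α κ) (D : Dat κ V)

/-- the value of a strand -/
noncomputable def El (w : List α) (x : V) : V := act M (tl M T w) (D.rz x [] (Z M T w))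

theorem El_act (w : List α) (x : V) : El M T D w x - El M T D w 0 = act M w x := by
  unfold El
  rw [← act_sub, D.rz_sub, sub_zero, List.nil_append, ← Z_act]

/-- the right party is ready -/
def PRc (z : List α) : Prop :=
  T.okR z ∧ ∃ (zn : Zn κ V) (l : List (Zn κ V)), Z M T z = zn :: l ∧ D.RA zn.j zn.q l

noncomputable def Ps (z : List α) : V := act M (tl M T z) (D.psi (Z M T z).tail)

def PR (n : ℕ) (z : List α) : Prop := ∃ d ≤ n, d ≤ z.length ∧ PRc M T D (z.take d)

def PL (y : V) (u : List α) : Prop :=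
  T.okL u ∧ D.lr (Z M T u) ≠ [] ∧ ∀ z, PRc M T D z →
    act M (tl M T z) (D.rz y [] (D.lr (Z M T u) ++ mg M (tl M T u) (Z M T z))) = Ps M T D z

noncomputable def lm (y : V) (u : List α) : V := act M (tl M T u) (actZ (D.lr (Z M T u)) y)

theorem PRc_app {z : List α} (h : PRc M T D z) (z' : List α) : PRc M T D (z ++ z') := by
  obtain ⟨h1, zn, l, h2, h3⟩ := h
  obtain ⟨L', hL'⟩ := Z_pre M T z z'
  refine ⟨T.okR_app _ _ h1, zn, l ++ L', ?_, D.RA_app h3 L'⟩
  rw [hL', h2]; rfl

theorem PR_c {n : ℕ} {z : List α} (h : PR M T D n z) : PRc M T D z := by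
  obtain ⟨d, -, -, h1⟩ := h
  have := PRc_app M T D h1 (z.drop d)
  rwa [List.take_append_drop] at this

variable {D} in
theorem _root_.Vale.Agent.P329.Look.Dat.lr_eq {R : List (Zn κ V)} (hR : D.st R)
    (h : D.lr R = []) (A : List (Zn κ V)) (hA : A ≠ []) : D.lr (A ++ R) = R := by
  induction A with
  | nil => exact absurd rfl hA
  | cons z A ih =>
    have h0 : A = [] ∨ A ≠ [] := Classical.em _
    rcases h0 with h0 | h0
    · subst h0
      rcases D.lr_cons z R with ⟨h1, h2⟩ | ⟨h1, h2, h3⟩ | ⟨h1, h2, h3⟩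
      · exact absurd h h1
      · exact h3
      · exact absurd hR h2
    · have h1 := ih h0
      rw [List.cons_append]
      rcases D.lr_cons z (A ++ R) with ⟨h1', h2⟩ | ⟨h1', h2, h3⟩ | ⟨h1', h2, h3⟩
      · rw [h2, h1]
      · exact absurd h1' (D.lr_ne hR A h0)
      · exact absurd h1' (D.lr_ne hR A h0)

theorem stab (u : List α) {k : List α} (h : D.lr (Z M T k) ≠ []) :
    D.lr (Z M T (u ++ k)) = D.lr (Z M T k) ∧ tl M T (u ++ k) = tl M T k := by
  have h0 : Z M T k ≠ [] := by
    intro h1
    rw [h1] at h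
    exact h rfl
  obtain ⟨A, hA, hL, hs⟩ := D.lr_spec _ h
  obtain ⟨A', hA', hL'⟩ := Z_suf M T u hL hA
  exact ⟨by rw [hL', Dat.lr_eq hs (D.lr_lr _) A' hA'], tl_app M T u h0⟩

theorem PL_app {y : V} {k : List α} (h : PL M T D y k) (u : List α) : PL M T D y (u ++ k) := by
  obtain ⟨h1, h2, h3⟩ := h
  obtain ⟨e1, e2⟩ := stab M T D u h2
  refine ⟨T.okL_app _ _ h1, by rw [e1]; exact h2, ?_⟩
  rw [e1, e2]
  exact h3

theorem lm_app {y : V} {k : List α} (h : PL M T D y k) (u : List α) :
    lm M T D y (u ++ k) = lm M T D y k := by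
  obtain ⟨e1, e2⟩ := stab M T D u h.2.1
  unfold lm
  rw [e1, e2]

theorem junc_ok {u z : List α} (hu : T.okL u) (hz : T.okR z) :
    Z M T (u ++ z) = Z M T u ++ mg M (tl M T u) (Z M T z) :=
  Z_junc M T z u (T.junc u z hu hz)

/-- a value at the last big mark -/
theorem El_left (u : List α) (x : V) (h : D.lr (Z M T u) ≠ []) :
    ∃ y, (∀ Q, D.vy x [] (Z M T u) Q = D.vy y [] (D.lr (Z M T u)) Q) ∧
      El M T D u x = lm M T D y u := by
  obtain ⟨y, hy⟩ := D.left_value x _ h
  refine ⟨y, hy, ?_⟩
  unfold El lm Dat.rz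
  rw [hy [], D.lr_vy _ (D.lr_lr _)]
  rfl

theorem junc_val {y : V} {u z : List α} {x : V} (hL : PL M T D y u) (hR : PRc M T D z)
    (h : El M T D u x = lm M T D y u) : El M T D (u ++ z) x = Ps M T D z := by
  obtain ⟨h1, h2, h3⟩ := hL
  obtain ⟨y1, hy1, he⟩ := El_left M T D u x h2
  have hzn : Z M T z ≠ [] := by
    obtain ⟨-, zn, l, h4, -⟩ := hR
    rw [h4]; exact List.cons_ne_nil _ _
  rw [he] at h
  unfold lm at h
  rw [← h3 z hR]
  unfold El
  rw [tl_app M T u hzn, junc_ok M T h1 hR.1, D.rz_append, hy1, ← D.rz_append, ← sub_eq_zero,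
    ← act_sub, D.rz_sub, List.nil_append, actZ_append, actZ_mg M _ hzn]
  show act M (tl M T z) (actZ (Z M T z) (ah M (tl M T u) (actZ (D.lr (Z M T u)) (y1 - y)))) = 0
  rw [ah_apply, map_sub, act_sub, h, sub_self, map_zero, act_zero]

/-- good words -/
def GoodT (g : List α) : Prop :=
  ∃ A C D0 : List (Zn κ V), Z M T g = A ++ (C ++ D0) ∧ D.lr A ≠ [] ∧ C.length = D.K ∧
    (∀ C1 C2 : List (Zn κ V), C = C1 ++ C2 → C1 ≠ [] → C2 ≠ [] → ¬ D.st (C2 ++ D0)) ∧
    D.hsT D0 ∧ ∀ (C1 : List (Zn κ V)) (X : Zn κ V) (C2 : List (Zn κ V)), C = C1 ++ X :: C2 →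
      ∃ a, T.n0 ≤ a ∧ a + D.Lg ≤ X.j ∧ ∀ i, a ≤ i → i < a + D.Lg →
        T.okL (g.take (len (A ++ C1) + i)) ∧ T.okR (g.drop (len (A ++ C1) + i))

theorem cutIn {n : ℕ} {g : List α} (hg : GoodT M T D g) (hn : g.length ≤ n) (u : List α) (x : V) :
    ∃ (r : V) (c d : List α), c ++ d = g ∧ PL M T D r c ∧ PR M T D n d ∧
      El M T D (u ++ c) x = lm M T D r c := by
  obtain ⟨A, C, D0, hZ, hA, hC, hnot, hD, hlong⟩ := hg
  have hA0 : A ≠ [] := by rintro rfl; exact hA rfl
  obtain ⟨Aw, hAw, hZu⟩ := Z_suf M T u hZ hA0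
  obtain ⟨C1, X, C2, hCs, hserve⟩ := D.serve x Aw C D0 hC hnot hD
  obtain ⟨a, ha0, haX, hok⟩ := hlong C1 X C2 hCs
  obtain ⟨i, hia, hib, hLA, hRA⟩ := hserve a haX
  have hiX : i ≤ X.j := by omega
  have hZg : Z M T g = (A ++ C1) ++ X :: (C2 ++ D0) := by rw [hZ, hCs]; simp
  obtain ⟨hokL, hokR⟩ := hok i hia hib
  obtain ⟨c, hc⟩ : ∃ c, c = g.take (len (A ++ C1) + i) := ⟨_, rfl⟩
  obtain ⟨d, hd⟩ : ∃ d, d = g.drop (len (A ++ C1) + i) := ⟨_, rfl⟩
  rw [← hc] at hokL
  rw [← hd] at hokR
  have hcd : c ++ d = g := by rw [hc, hd, List.take_append_drop]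
  have hZc : Z M T c = A ++ C1 := by
    rw [hc, Z_take, hZg, pre_len T (by omega) hiX]
  have hjg := junc_ok M T hokL hokR
  rw [hcd, hZg, hZc, List.append_cancel_left_eq] at hjg
  obtain ⟨zn, hzd, hX⟩ : ∃ zn : Zn κ V, Z M T d = zn :: (C2 ++ D0) ∧
      X = ⟨(tl M T c).length + zn.j, zn.q, zn.g.comp (ah M (tl M T c))⟩ := by
    rcases hZd : Z M T d with _ | ⟨zn, l⟩
    · rw [hZd] at hjg
      exact absurd hjg (List.cons_ne_nil _ _)
    · rw [hZd] at hjg
      have h1 : X :: (C2 ++ D0) = ⟨(tl M T c).length + zn.j, zn.q,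
        zn.g.comp (ah M (tl M T c))⟩ :: l := hjg
      rw [List.cons.injEq] at h1
      exact ⟨zn, by rw [h1.2], h1.1⟩
  have hlen : (tl M T c).length = i := by
    have h1 := tl_len M T c
    have h2 := tl_len M T g
    rw [hZc] at h1
    rw [hZg, len_append] at h2
    have h3 : len (X :: (C2 ++ D0)) = X.j + len (C2 ++ D0) := rfl
    have h4 : c.length = len (A ++ C1) + i := by
      rw [hc, List.length_take]; omega
    omega
  have hRd : PRc M T D d := by
    refine ⟨hokR, zn, C2 ++ D0, hzd, ?_⟩
    have e1 : zn.j = X.j - i := by rw [hX, hlen]; dsimp only; omega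
    have e2 : zn.q = X.q := by rw [hX]
    rw [e1, e2]
    exact hRA
  have hlrc : D.lr (Z M T c) ≠ [] := by rw [hZc]; exact D.lr_app_right hA C1
  obtain ⟨e1, e2⟩ := stab M T D u hlrc
  obtain ⟨y, hy, hE⟩ := El_left M T D (u ++ c) x (by rw [e1]; exact hlrc)
  rw [e1] at hy
  have hZuc : Z M T (u ++ c) = Aw ++ C1 := by
    have h1 := junc_ok M T (T.okL_app u c hokL) hokR
    rw [e2, ← hjg, List.append_assoc, hcd, hZu, hCs] at h1
    have h2 : (Aw ++ C1) ++ X :: (C2 ++ D0) = Z M T (u ++ c) ++ X :: (C2 ++ D0) := by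
      rw [← h1]; simp
    exact (List.append_cancel_right h2).symm
  rw [hZuc] at hy
  refine ⟨y, c, d, hcd, ⟨hokL, hlrc, ?_⟩, ?_, ?_⟩
  · rintro z ⟨hz1, zn', l', hz2, hz3⟩
    unfold Ps
    rw [hz2]
    show act M (tl M T z) (D.rz y [] (D.lr (Z M T c) ++
      ⟨(tl M T c).length + zn'.j, zn'.q, _⟩ :: l')) = act M (tl M T z) (D.psi l')
    rw [hlen, D.sound' _ ?_ hz3]
    intro q l
    have h1 := hLA q l
    rw [hy] at h1
    exact h1
  · refine ⟨d.length, ?_, le_rfl, ?_⟩
    · have := congrArg List.length hcd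
      rw [List.length_append] at this
      omega
    · rw [List.take_length]; exact hRd
  · rw [hE]
    unfold lm
    rw [e1, e2]

/-- the cut system -/
theorem sys {n : ℕ} (hn : 0 < n) : CS n (El M T D) (PL M T D) (fun _ : V => PR M T D n)
    (lm M T D) (fun _ : V => Ps M T D) {g | GoodT M T D g ∧ g.length ≤ n} where
  pos := hn
  plApp _ u k h := PL_app M T D h u
  lamApp _ u k h := lm_app M T D h u
  prApp _ k z h := by
    obtain ⟨d, h1, h2, h3⟩ := h
    refine ⟨d, h1, ?_, ?_⟩
    · rw [List.length_append]; omega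
    · rw [List.take_append_of_le_length h2]; exact h3
  prLoc _ k z h hk := by
    obtain ⟨d, h1, h2, h3⟩ := h
    refine ⟨d, h1, by omega, ?_⟩
    rwa [List.take_append_of_le_length (by omega)] at h3
  junc _ _ u z x hL hR h := junc_val M T D hL (PR_c M T D hR) h
  cutIn g hg u x := cutIn M T D hg.1 hg.2 u x

end sys

end Vale.Agent.P329.Look
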