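import Vale.Agent.P329.H616.Look.Text
import Vale.Agent.P329.H616.Look.Defs

set_option linter.all false

/-!
Boundaries given by windows and clusters.
-/

namespace Vale.Agent.P329.Look

open Vale.Agent.P329 Vale.Agent.P329.Slow Vale.Agent.P329.Mark Vale.Agent.P329.Clock

section win

variable {α κ : Type}

theorem mark_take {U : Set (List α)} {m n x : ℕ} {w : List α} (h : x + m ≤ n) :
    Mark U m (w.take n) x ↔ Mark U m w x := by
  unfold Mark
  rw [List.drop_take, List.take_take, min_eq_left (by omega), List.length_take]
  constructor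
  · rintro ⟨h1, h2⟩; exact ⟨by omega, h2⟩
  · rintro ⟨h1, h2⟩; exact ⟨by omega, h2⟩

theorem mark_drop {U : Set (List α)} {m n x : ℕ} {w : List α} (h : n ≤ w.length) :
    Mark U m (w.drop n) x ↔ Mark U m w (n + x) := by
  unfold Mark
  rw [List.drop_drop, List.length_drop]
  constructor
  · rintro ⟨h1, h2⟩; exact ⟨by omega, h2⟩
  · rintro ⟨h1, h2⟩; exact ⟨by omega, h2⟩

theorem mark_left {U : Set (List α)} {m x : ℕ} {s s' : List α} (h : x + m ≤ s.length) :
    Mark U m (s ++ s') x ↔ Mark U m s x := by
  have h1 : s = (s ++ s').take s.length := (List.take_left).symm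
  conv_rhs => rw [h1]
  exact (mark_take h).symm

theorem mark_right {U : Set (List α)} {m x : ℕ} {s s' : List α} :
    Mark U m (s ++ s') (s.length + x) ↔ Mark U m s' x := by
  have h1 := mark_drop (U := U) (m := m) (n := s.length) (x := x) (w := s ++ s')
    (by rw [List.length_append]; omega)
  rw [List.drop_left] at h1
  exact h1.symm

variable (U : Set (List α)) (m T : ℕ) (c : List α → κ)

def okLw (u : List α) : Prop :=
  ∃ p, p + (m + T) ≤ u.length ∧ ∀ x, p < x → ¬ Mark U m u x

def okRw (z : List α) : Prop := m ≤ 1 ∨ ∃ q, q + m ≤ T + 1 ∧ Mark U m z q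

/-- the boundaries -/
def win (hm : 0 < m) : Bd α κ where
  B := Bdy U m T
  col s := c (s.take (m + T))
  n0 := m + T
  pos := by omega
  short s h := h.1
  loc s s' h := by
    unfold Bdy
    rw [List.length_append, mark_left (by omega)]
    refine and_congr ⟨fun _ => h, fun _ => by omega⟩ (and_congr Iff.rfl ?_)
    refine forall_congr' fun p => forall_congr' fun _ => forall_congr' fun hp => ?_
    rw [mark_left (by omega)]
  colloc s s' h := by
    rw [List.take_append_of_le_length h]
  okL := okLw U m T
  okR := okRw U m T
  okL_app u k h := by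
    obtain ⟨p, h1, h2⟩ := h
    refine ⟨u.length + p, by rw [List.length_append]; omega, fun x hx hM => ?_⟩
    have h3 : x = u.length + (x - u.length) := by omega
    rw [h3, mark_right] at hM
    exact h2 _ (by omega) hM
  okR_app k z h := by
    rcases h with h | ⟨q, h1, h2⟩
    · exact Or.inl h
    · exact Or.inr ⟨q, h1, (mark_left h2.1).2 h2⟩
  junc u z hu hz v hv hne := by
    obtain ⟨p, h1, h2⟩ := hu
    by_cases hlen : m + T ≤ v.length
    · unfold Bdy
      rw [List.length_append, mark_left (by omega)]
      refine and_congr ⟨fun _ => hlen, fun _ => by omega⟩ (and_congr Iff.rfl ?_)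
      refine forall_congr' fun p => forall_congr' fun _ => forall_congr' fun hp => ?_
      rw [mark_left (by omega)]
    · refine ⟨fun h => ?_, fun h => absurd h.1 hlen⟩
      exfalso
      obtain ⟨w, rfl⟩ := hv
      rw [List.length_append] at h1
      by_cases hm2 : m ≤ v.length
      · have h3 : Mark U m v 0 := (mark_left (by omega)).1 h.2.1
        have h4 : Mark U m (w ++ v) (w.length + 0) := mark_right.2 h3
        exact h2 _ (by omega) h4
      · have hv0 : 0 < v.length := List.length_pos_iff.2 hne
        rcases hz with hz | ⟨q, h3, h4⟩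
        · omega
        · exact h.2.2 (v.length + q) (by omega) (by omega) (mark_right.2 h4)

end win

section bridge

variable {α κ V : Type} [AddCommGroup V] (M : α → V →+ V)
variable (U : Set (List α)) (m T : ℕ) (c : List α → κ) (hm : 0 < m)

/-- forget the action -/
def fg (z : Zn κ V) : κ × ℕ := (z.q, z.j)

theorem fg_mg (a : α) (L : List (Zn κ V)) : (mg M [a] L).map fg = bump (L.map fg) := by
  cases L with
  | nil => rfl
  | cons z l =>
    show ((z.q, [a].length + z.j) : κ × ℕ) :: l.map fg = (z.q, z.j + 1) :: l.map fg
    rw [List.length_singleton, add_comm]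

theorem fg_Z (w : List α) : (Z M (win U m T c hm) w).map fg = zones U m T c w := by
  induction w with
  | nil => rfl
  | cons a w ih =>
    rw [Z_cons, List.map_append, fg_mg, ih, zones]
    congr 1
    by_cases h : Bdy U m T (a :: w)
    · rw [if_pos h, nw_pos (win U m T c hm) (by exact h)]
      rfl
    · rw [if_neg h, nw_neg (win U m T c hm) (by exact h)]
      rfl

theorem len_fg (L : List (Zn κ V)) : tot (L.map fg) = len L := by
  induction L with
  | nil => rfl
  | cons z L ih =>
    show (((z :: L).map fg).map Prod.snd).sum = z.j + len L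
    rw [List.map_cons, List.map_cons, List.sum_cons, ← ih]
    rfl

end bridge

section pos

variable {α κ V : Type} [AddCommGroup V] (M : α → V →+ V) (B : Bd α κ)

theorem mg_split {u : List α} {L0 A L : List (Zn κ V)} (h : mg M u L0 = A ++ L) (hA : A ≠ []) :
    ∃ A', A' ≠ [] ∧ L0 = A' ++ L ∧ len A = u.length + len A' := by
  rcases L0 with _ | ⟨z, l⟩
  · have h1 : ([] : List (Zn κ V)) = A ++ L := h
    rw [eq_comm, List.append_eq_nil_iff] at h1
    exact absurd h1.1 hA
  · rcases A with _ | ⟨z', A⟩
    · exact absurd rfl hA
    · have h1 : (⟨u.length + z.j, z.q, z.g.comp (ah M u)⟩ : Zn κ V) :: l = z' :: (A ++ L) := h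
      rw [List.cons.injEq] at h1
      obtain ⟨rfl, rfl⟩ := h1
      refine ⟨z :: A, List.cons_ne_nil _ _, rfl, ?_⟩
      show u.length + z.j + len A = u.length + (z.j + len A)
      rw [add_assoc]

/-- the boundary after the zones `A` -/
theorem Z_pos (w : List α) : ∀ A L : List (Zn κ V), Z M B w = A ++ L → A ≠ [] →
    B.B (w.drop (len A)) := by
  induction w with
  | nil =>
    intro A L h hA
    have h1 : ([] : List (Zn κ V)) = A ++ L := h
    rw [eq_comm, List.append_eq_nil_iff] at h1
    exact absurd h1.1 hA
  | cons a w ih =>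
    have key : ∀ A L : List (Zn κ V), mg M [a] (Z M B w) = A ++ L → A ≠ [] →
        B.B ((a :: w).drop (len A)) := by
      intro A L h hA
      obtain ⟨A', hA', h1, h2⟩ := mg_split M h hA
      have h3 := ih A' L h1 hA'
      rw [h2, List.length_singleton, add_comm]
      exact h3
    intro A L h hA
    rw [Z_cons] at h
    by_cases hB : B.B (a :: w)
    · rw [nw_pos B hB] at h
      rcases A with _ | ⟨z', A⟩
      · exact absurd rfl hA
      · have h1 : (⟨0, B.col (a :: w), AddMonoidHom.id V⟩ : Zn κ V) :: mg M [a] (Z M B w) =
          z' :: (A ++ L) := h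
        rw [List.cons.injEq] at h1
        obtain ⟨rfl, h2⟩ := h1
        have h3 : len ((⟨0, B.col (a :: w), AddMonoidHom.id V⟩ : Zn κ V) :: A) = len A :=
          Nat.zero_add _
        rw [h3]
        by_cases hA2 : A = []
        · subst hA2; exact hB
        · exact key A L h2 hA2
    · rw [nw_neg B hB, List.nil_append] at h
      exact key A L h hA

/-- only the first zone can have length zero -/
theorem Z_jpos (w : List α) : ∀ (A : List (Zn κ V)) (z : Zn κ V) (L : List (Zn κ V)),
    Z M B w = A ++ z :: L → A ≠ [] → 0 < z.j := by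
  induction w with
  | nil =>
    intro A z L h hA
    have h1 : ([] : List (Zn κ V)) = A ++ z :: L := h
    rw [eq_comm, List.append_eq_nil_iff] at h1
    exact absurd h1.1 hA
  | cons a w ih =>
    have key : ∀ (A : List (Zn κ V)) (z : Zn κ V) (L : List (Zn κ V)),
        mg M [a] (Z M B w) = A ++ z :: L → A ≠ [] → 0 < z.j := by
      intro A z L h hA
      obtain ⟨A', hA', h1, h2⟩ := mg_split M h hA
      exact ih A' z L h1 hA'
    intro A z L h hA
    rw [Z_cons] at h
    by_cases hB : B.B (a :: w)
    · rw [nw_pos B hB] at h
      rcases A with _ | ⟨z', A⟩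
      · exact absurd rfl hA
      · have h1 : (⟨0, B.col (a :: w), AddMonoidHom.id V⟩ : Zn κ V) :: mg M [a] (Z M B w) =
          z' :: (A ++ z :: L) := h
        rw [List.cons.injEq] at h1
        obtain ⟨-, h2⟩ := h1
        by_cases hA2 : A = []
        · subst hA2
          rcases hZ : Z M B w with _ | ⟨z0, l0⟩
          · rw [hZ] at h2
            exact absurd h2 (by simp [mg])
          · rw [hZ] at h2
            have h3 : (⟨[a].length + z0.j, z0.q, z0.g.comp (ah M [a])⟩ : Zn κ V) :: l0 =
              z :: L := h2
            rw [List.cons.injEq] at h3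
            rw [← h3.1]
            dsimp only
            rw [List.length_singleton]
            omega
        · exact key A z L h2 hA2
    · rw [nw_neg B hB, List.nil_append] at h
      exact key A z L h hA

end pos

end Vale.Agent.P329.Look
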